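import Vale.Agent.P183.R2.H528.Rep

/-!
Congruence lattices of unary algebras are dual to lattices of closed subrings of `𝔽₂^X`, and every
congruence lattice is the congruence lattice of a unary algebra.
-/

namespace Vale.Agent.P183.H528

section dual

variable {X : Type}

theorem zmod2 (a : ZMod 2) : a = 0 ∨ a = 1 := by
  revert a
  decide

/-- functions constant on the classes -/
def constRing (r : Setoid X) : Subring (X → ZMod 2) where
  carrier := {u | ∀ x y, r x y → u x = u y}
  mul_mem' := by
    intro a b ha hb x y h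
    rw [Pi.mul_apply, Pi.mul_apply, ha x y h, hb x y h]
  one_mem' := fun _ _ _ => rfl
  add_mem' := by
    intro a b ha hb x y h
    rw [Pi.add_apply, Pi.add_apply, ha x y h, hb x y h]
  zero_mem' := fun _ _ _ => rfl
  neg_mem' := by
    intro a ha x y h
    rw [Pi.neg_apply, Pi.neg_apply, ha x y h]

theorem mem_constRing {r : Setoid X} {u : X → ZMod 2} :
    u ∈ constRing r ↔ ∀ x y, r x y → u x = u y := Iff.rfl

/-- composition with `f` -/
def pull (f : X → X) : (X → ZMod 2) →+* (X → ZMod 2) where
  toFun := fun u x => u (f x)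
  map_one' := rfl
  map_mul' := fun _ _ => rfl
  map_zero' := rfl
  map_add' := fun _ _ => rfl

theorem pull_apply (f : X → X) (u : X → ZMod 2) (x : X) : pull f u x = u (f x) := rfl

theorem constRing_le_iff {r s : Setoid X} : constRing s ≤ constRing r ↔ r ≤ s := by
  classical
  constructor
  · intro h x y hxy
    have h1 : (fun z => if s x z then (1 : ZMod 2) else 0) ∈ constRing s := by
      intro a b hab
      change (if s x a then (1 : ZMod 2) else 0) = (if s x b then (1 : ZMod 2) else 0)
      by_cases h2 : s x a
      · rw [if_pos h2, if_pos (s.trans h2 hab)]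
      · rw [if_neg h2, if_neg fun h3 => h2 (s.trans h3 (s.symm hab))]
    have h2 := h h1 x y hxy
    simp only [if_pos (s.refl x)] at h2
    by_contra h3
    rw [if_neg h3] at h2
    exact one_ne_zero h2
  · intro h u hu x y hxy
    exact hu x y (h hxy)

/-- every subring of `𝔽₂^X` consists of the functions constant on the classes of a partition -/
theorem eq_constRing [Finite X] (P : Subring (X → ZMod 2)) (r : Setoid X)
    (hr : ∀ x y, r x y ↔ ∀ u ∈ P, u x = u y) : constRing r = P := by
  classical
  have : Fintype X := Fintype.ofFinite X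
  apply le_antisymm
  · intro v hv
    -- separating functions
    have sep : ∀ x y, ¬ r x y → ∃ w ∈ P, w x = 1 ∧ w y = 0 := by
      intro x y hxy
      rw [hr] at hxy
      push Not at hxy
      obtain ⟨u, hu, hne⟩ := hxy
      rcases zmod2 (u x) with h1 | h1
      · rcases zmod2 (u y) with h2 | h2
        · exact absurd (h1.trans h2.symm) hne
        · exact ⟨1 - u, P.sub_mem P.one_mem hu, by simp [h1], by simp [h2]⟩
      · rcases zmod2 (u y) with h2 | h2
        · exact ⟨u, hu, h1, h2⟩
        · exact absurd (h1.trans h2.symm) hne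
    have ind : ∀ x, ∃ c ∈ P, ∀ z, (r x z → c z = 1) ∧ (¬ r x z → c z = 0) := by
      intro x
      let w : X → X → ZMod 2 := fun y => if h : r x y then 1 else (sep x y h).choose
      have hw : ∀ y, w y ∈ P := by
        intro y
        by_cases h : r x y
        · rw [show w y = 1 from dif_pos h]; exact P.one_mem
        · rw [show w y = (sep x y h).choose from dif_neg h]
          exact (sep x y h).choose_spec.1
      refine ⟨∏ y, w y, prod_mem fun y _ => hw y, fun z => ⟨fun hz => ?_, fun hz => ?_⟩⟩
      · rw [Finset.prod_apply]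
        refine Finset.prod_eq_one fun y _ => ?_
        rw [← (hr x z).mp hz (w y) (hw y)]
        by_cases h : r x y
        · rw [show w y = 1 from dif_pos h]; rfl
        · rw [show w y = (sep x y h).choose from dif_neg h]
          exact (sep x y h).choose_spec.2.1
      · rw [Finset.prod_apply]
        refine Finset.prod_eq_zero (Finset.mem_univ z) ?_
        rw [show w z = (sep x z hz).choose from dif_neg hz]
        exact (sep x z hz).choose_spec.2.2
    choose c hc hc' using ind
    have hprod : v = 1 - ∏ x, (1 - if v x = 1 then c x else 0) := by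
      funext z
      rw [Pi.sub_apply, Pi.one_apply, Finset.prod_apply]
      rcases zmod2 (v z) with h1 | h1
      · rw [h1, Finset.prod_eq_one, sub_self]
        intro x _
        rw [Pi.sub_apply, Pi.one_apply]
        by_cases h2 : v x = 1
        · rw [if_pos h2]
          have h3 : ¬ r x z := by
            intro h3
            have := hv x z h3
            rw [h1, h2] at this
            exact one_ne_zero this
          rw [(hc' x z).2 h3, sub_zero]
        · rw [if_neg h2, Pi.zero_apply, sub_zero]
      · rw [h1, Finset.prod_eq_zero (Finset.mem_univ z), sub_zero]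
        rw [Pi.sub_apply, Pi.one_apply, if_pos h1, (hc' z z).1 (r.refl z), sub_self]
    rw [hprod]
    refine P.sub_mem P.one_mem (prod_mem fun x _ => P.sub_mem P.one_mem ?_)
    split_ifs
    · exact hc x
    · exact P.zero_mem
  · intro u hu x y hxy
    exact (hr x y).mp hxy u hu

/-- the congruence lattice of a unary algebra is dual to a lattice of closed subrings -/
theorem dual_iso [Finite X] {I : Type} (f : I → X → X) :
    Nonempty ((UCon X I f)ᵒᵈ ≃o OpSub (⊥ : Subring (X → ZMod 2)) (Set.range fun i => pull (f i))) := by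
  let F : Set ((X → ZMod 2) →+* (X → ZMod 2)) := Set.range fun i => pull (f i)
  let t : (UCon X I f)ᵒᵈ → OpSub (⊥ : Subring (X → ZMod 2)) F := fun r =>
    ⟨constRing (OrderDual.ofDual r).1, bot_le, by
      rintro _ ⟨i, rfl⟩ u hu x y hxy
      exact hu _ _ ((OrderDual.ofDual r).2 i x y hxy)⟩
  have ht : ∀ r s, t r ≤ t s ↔ r ≤ s := by
    intro r s
    exact constRing_le_iff
  refine ⟨RelIso.ofSurjective (OrderEmbedding.ofMapLEIff t ht) ?_⟩
  rintro ⟨P, -, hP⟩
  let r : Setoid X :=
    { r := fun x y => ∀ u ∈ P, u x = u y
      iseqv := ⟨fun x u _ => rfl, fun h u hu => (h u hu).symm,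
        fun h h' u hu => (h u hu).trans (h' u hu)⟩ }
  have hr : ∀ x y, r x y ↔ ∀ u ∈ P, u x = u y := fun x y => Iff.rfl
  have hr2 : ∀ (i : I) (x y : X), r x y → r (f i x) (f i y) := by
    intro i x y hxy u hu
    exact hxy (pull (f i) u) (hP _ ⟨i, rfl⟩ u hu)
  exact ⟨OrderDual.toDual ⟨r, hr2⟩, Subtype.ext (eq_constRing P r hr)⟩

end dual

section unarise

/-- the index type of all basic translations -/
abbrev TrI (A : FiniteAlgebra) : Type :=
  Σ i : A.index, (Fin (A.arity i) × (Fin (A.arity i) → A.carrier))

/-- all basic translations -/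
def trs (A : FiniteAlgebra) : TrI A → A.carrier → A.carrier :=
  fun t x => A.op t.1 (Function.update t.2.2 t.2.1 x)

theorem cong_iff_trs (A : FiniteAlgebra) (r : Setoid A.carrier) :
    A.IsCongruence r ↔ ∀ (t : TrI A) (x y : A.carrier), r x y → r (trs A t x) (trs A t y) := by
  constructor
  · rintro h ⟨i, j, c⟩ x y hxy
    refine h i _ _ fun k => ?_
    by_cases hk : k = j
    · subst hk
      simpa using hxy
    · rw [Function.update_of_ne hk, Function.update_of_ne hk]
  · intro h i x y hxy
    classical
    have key : ∀ s : Finset (Fin (A.arity i)), r (A.op i x) (A.op i (s.piecewise y x)) := by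
      intro s
      induction s using Finset.induction_on with
      | empty =>
        rw [Finset.piecewise_empty]
      | insert a s ha ih =>
        refine r.trans ih ?_
        have h1 : s.piecewise y x = Function.update (s.piecewise y x) a (x a) := by
          rw [eq_comm, Function.update_eq_self_iff]
          rw [Finset.piecewise_eq_of_notMem _ _ _ ha]
        rw [Finset.piecewise_insert]
        have h2 := h ⟨i, a, s.piecewise y x⟩ (x a) (y a) (hxy a)
        simp only [trs] at h2
        rw [← h1] at h2
        exact h2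
    have := key Finset.univ
    rwa [Finset.piecewise_univ] at this

/-- every congruence lattice is the congruence lattice of a unary algebra -/
theorem con_iso (A : FiniteAlgebra) : Nonempty (A.Con ≃o UCon A.carrier (TrI A) (trs A)) :=
  ⟨{ toFun := fun r => ⟨r.1, (cong_iff_trs A r.1).mp r.2⟩
     invFun := fun r => ⟨r.1, (cong_iff_trs A r.1).mpr r.2⟩
     left_inv := fun _ => rfl
     right_inv := fun _ => rfl
     map_rel_iff' := Iff.rfl }⟩

end unarise

section final

/-- the dual of a congruence lattice is a lattice of closed subrings -/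
theorem dual_opSub (L : Type) [LE L] (hL : Representable L) :
    ∃ (X : Type) (_ : Finite X) (F : Set ((X → ZMod 2) →+* (X → ZMod 2))),
      Nonempty (Lᵒᵈ ≃o OpSub (⊥ : Subring (X → ZMod 2)) F) := by
  obtain ⟨A, ⟨e⟩⟩ := hL
  obtain ⟨e1⟩ := con_iso A
  have := A.finite_carrier
  obtain ⟨e2⟩ := dual_iso (trs A)
  exact ⟨A.carrier, A.finite_carrier, _, ⟨(e.trans e1).dual.trans e2⟩⟩

/-- closed subrings over `S` are closed subrings over the closure of `S` -/
theorem opSub_representable (R : Type) [CommRing R] [Finite R] (S : Subring R)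
    (F : Set (R →+* R)) : Representable (OpSub S F) := by
  let S' : Subring R := sInf {P : Subring R | S ≤ P ∧ ∀ φ ∈ F, ∀ x ∈ P, φ x ∈ P}
  have hS' : ∀ φ ∈ F, ∀ x ∈ S', φ x ∈ S' := by
    intro φ hφ x hx
    rw [Subring.mem_sInf] at hx ⊢
    intro P hP
    exact hP.2 φ hφ x (hx P hP)
  have hSS' : S ≤ S' := le_sInf fun P hP => hP.1
  have hle : ∀ P : Subring R, (∀ φ ∈ F, ∀ x ∈ P, φ x ∈ P) → (S' ≤ P ↔ S ≤ P) :=
    fun P hP => ⟨fun h => hSS'.trans h, fun h => sInf_le ⟨h, hP⟩⟩
  obtain ⟨A, ⟨e⟩⟩ := opSub_iso S' F hS'
  let e' : OpSub S F ≃o OpSub S' F :=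
    { toFun := fun P => ⟨P.1, (hle P.1 P.2.2).mpr P.2.1, P.2.2⟩
      invFun := fun P => ⟨P.1, (hle P.1 P.2.2).mp P.2.1, P.2.2⟩
      left_inv := fun _ => rfl
      right_inv := fun _ => rfl
      map_rel_iff' := Iff.rfl }
  exact ⟨A, ⟨e'.trans e⟩⟩

theorem representable_congr {L M : Type} [LE L] [LE M] (e : L ≃o M) (h : Representable M) :
    Representable L := by
  obtain ⟨A, ⟨e'⟩⟩ := h
  exact ⟨A, ⟨e.trans e'⟩⟩

/-- duality for representable lattices -/
theorem representable_dual (L : Type) [LE L] (hL : Representable L) : Representable Lᵒᵈ := by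
  obtain ⟨X, hX, F, ⟨e⟩⟩ := dual_opSub L hL
  exact representable_congr e (opSub_representable (X → ZMod 2) ⊥ F)

/-- the characterisation -/
theorem representable_iff (L : Type) [LE L] : Representable L ↔
    ∃ (R : Type) (_ : CommRing R) (_ : Finite R) (S : Subring R) (F : Set (R →+* R)),
      Nonempty (L ≃o OpSub S F) := by
  constructor
  · intro h
    obtain ⟨X, hX, F, ⟨e⟩⟩ := dual_opSub Lᵒᵈ (representable_dual L h)
    exact ⟨X → ZMod 2, inferInstance, inferInstance, ⊥, F, ⟨(OrderIso.dualDual L).trans e⟩⟩
  · rintro ⟨R, _, _, S, F, ⟨e⟩⟩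
    exact representable_congr e (opSub_representable R S F)

end final

end Vale.Agent.P183.H528
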