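import Vale.Agent.P183.R2.H528.Pair
import Vale.Agent.P183.R2.H528.Dual

/-!
Pairs `(B, θ)`: `B` a group of permutations, `θ` an invariant equivalence relation.
-/

namespace Vale.Agent.P183.H528

section

variable {X : Type} {A : Type} [Group A] [MulAction A X]

/-- the action on functions -/
def funAct (X : Type) (A : Type) [Group A] [MulAction A X] :
    A →* ((X → ZMod 2) ≃+* (X → ZMod 2)) where
  toFun a :=
    { toFun := fun u x => u (a⁻¹ • x)
      invFun := fun u x => u (a • x)
      left_inv := fun u => by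
        funext x
        simp
      right_inv := fun u => by
        funext x
        simp
      map_mul' := fun _ _ => rfl
      map_add' := fun _ _ => rfl }
  map_one' := by
    ext u x
    simp
  map_mul' a b := by
    ext u x
    simp [mul_smul]

theorem funAct_apply (a : A) (u : X → ZMod 2) (x : X) : funAct X A a u x = u (a⁻¹ • x) := rfl

theorem pairEq_iso [Finite X] (A₀ : Subgroup A) :
    Nonempty (PairEq X A₀ ≃o PairSub (⊥ : Subring (X → ZMod 2)) A₀ (funAct X A)) := by
  let t : PairEq X A₀ → PairSub (⊥ : Subring (X → ZMod 2)) A₀ (funAct X A) := fun x =>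
    ⟨(x.1.1, constRing (OrderDual.ofDual x.1.2)), x.2.1, bot_le, by
      intro a ha u hu y z hyz
      rw [funAct_apply, funAct_apply]
      exact hu _ _ (x.2.2 a⁻¹ (x.1.1.inv_mem ha) y z hyz)⟩
  have ht : ∀ x y, t x ≤ t y ↔ x ≤ y := by
    intro x y
    constructor
    · intro h
      exact ⟨h.1, constRing_le_iff.mp h.2⟩
    · intro h
      exact ⟨h.1, constRing_le_iff.mpr h.2⟩
  refine ⟨RelIso.ofSurjective (OrderEmbedding.ofMapLEIff t ht) ?_⟩
  rintro ⟨⟨B, P⟩, hB, -, hP⟩
  let r : Setoid X :=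
    { r := fun x y => ∀ u ∈ P, u x = u y
      iseqv := ⟨fun x u _ => rfl, fun h u hu => (h u hu).symm,
        fun h h' u hu => (h u hu).trans (h' u hu)⟩ }
  have hr : ∀ x y, r x y ↔ ∀ u ∈ P, u x = u y := fun x y => Iff.rfl
  have hr2 : ∀ a ∈ B, ∀ x y : X, r x y → r (a • x) (a • y) := by
    intro a ha x y hxy u hu
    have h1 := hxy (funAct X A a⁻¹ u) (hP a⁻¹ (B.inv_mem ha) u hu)
    rwa [funAct_apply, funAct_apply, inv_inv] at h1
  exact ⟨⟨(B, OrderDual.toDual r), hB, hr2⟩,
    Subtype.ext (Prod.ext rfl (eq_constRing P r hr))⟩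

/-- pairs `(B, θ)` form a group interval -/
theorem pairEq_interval [Finite X] [Finite A] (A₀ : Subgroup A) :
    ∃ (G : Type) (_ : Group G) (_ : Finite G) (H : Subgroup G),
      Nonempty (PairEq X A₀ ≃o Over H) := by
  obtain ⟨e⟩ := pairEq_iso (X := X) A₀
  obtain ⟨G, hG, hG', H, ⟨e'⟩⟩ := pair_iso (⊥ : Subring (X → ZMod 2)) A₀ (funAct X A)
  exact ⟨G, hG, hG', H, ⟨e.trans e'⟩⟩

end

end Vale.Agent.P183.H528
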