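import Vale.Agent.P183.R2.H528.GI
import Vale.Agent.P183.R2.H528.PairEq

/-!
Pairs `(B, K)`, `B` a group of automorphisms, `K` an invariant subgroup, in both orders.
-/

namespace Vale.Agent.P183.H528

open Matrix

theorem gi_congr {L M : Type} [LE L] [LE M] (e : L ≃o M) (h : GroupInterval M) :
    GroupInterval L := by
  obtain ⟨G, hG, hf, H, ⟨e'⟩⟩ := h
  exact ⟨G, hG, hf, H, ⟨e.trans e'⟩⟩

/-- upper intervals -/
theorem gi_Ici {L : Type} [LE L] (h : GroupInterval L) (u : L) :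
    GroupInterval {x : L // u ≤ x} := by
  obtain ⟨G, hG, hf, H, ⟨e⟩⟩ := h
  let f : {x : L // u ≤ x} → Over (e u).1 := fun x => ⟨(e x.1).1, e.map_rel_iff.mpr x.2⟩
  have hf' : ∀ x y, f x ≤ f y ↔ x ≤ y := fun x y => e.map_rel_iff
  refine ⟨G, hG, hf, (e u).1, ⟨?_⟩⟩
  exact
    { toFun := f
      invFun := fun K => ⟨e.symm ⟨K.1, (e u).2.trans K.2⟩, by
        rw [← e.map_rel_iff, e.apply_symm_apply]
        exact K.2⟩
      left_inv := fun x => Subtype.ext (e.symm_apply_apply _)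
      right_inv := fun K => Subtype.ext (by
        change (e (e.symm _)).1 = K.1
        rw [e.apply_symm_apply])
      map_rel_iff' := fun {x y} => hf' x y }

/-- lower intervals -/
theorem gi_Iic {L : Type} [LE L] (h : GroupInterval L) (u : L) :
    GroupInterval {x : L // x ≤ u} := by
  obtain ⟨G, hG, hf, H, ⟨e⟩⟩ := h
  let T : Subgroup G := (e u).1
  have hT : ∀ x : {x : L // x ≤ u}, (e x.1).1 ≤ T := fun x => e.map_rel_iff.mpr x.2
  have key : ∀ K K' : Subgroup G, K ≤ T → (K.subgroupOf T ≤ K'.subgroupOf T ↔ K ≤ K') := by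
    intro K K' hK
    constructor
    · intro h x hx
      exact h (x := ⟨x, hK hx⟩) hx
    · intro h x hx
      exact h hx
  refine ⟨T, inferInstance, inferInstance, H.subgroupOf T, ⟨?_⟩⟩
  exact
    { toFun := fun x => ⟨(e x.1).1.subgroupOf T, fun y hy => (e x.1).2 hy⟩
      invFun := fun K => ⟨e.symm ⟨K.1.map T.subtype, by
          intro y hy
          exact ⟨⟨y, (e u).2 hy⟩, K.2 hy, rfl⟩⟩, by
        rw [← e.map_rel_iff, e.apply_symm_apply]
        rintro _ ⟨y, -, rfl⟩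
        exact y.2⟩
      left_inv := fun x => Subtype.ext (by
        rw [e.symm_apply_eq]
        refine Subtype.ext ?_
        change ((e x.1).1.subgroupOf T).map T.subtype = (e x.1).1
        rw [Subgroup.subgroupOf_map_subtype]
        exact inf_eq_left.mpr (hT x))
      right_inv := fun K => Subtype.ext (by
        change (e (e.symm _)).1.subgroupOf T = K.1
        rw [e.apply_symm_apply]
        change (K.1.map T.subtype).comap T.subtype = K.1
        exact Subgroup.comap_map_eq_self_of_injective T.subtype_injective K.1)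
      map_rel_iff' := fun {x y} => (key _ _ (hT x)).trans e.map_rel_iff }

/-- The set `Γ` on which the semidirect product acts: `(γ, c) • x = γ * ψ c x`. -/
@[ext]
structure Aff {Γ C : Type} [Group Γ] [Group C] (ψ : C →* MulAut Γ) : Type where
  /-- the element of the group -/
  val : Γ

section aff

variable {Γ C : Type} [Group Γ] [Group C] (ψ : C →* MulAut Γ)

instance affAction : MulAction (Γ ⋊[ψ] C) (Aff ψ) where
  smul w x := ⟨w.left * ψ w.right x.val⟩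
  one_smul x := by
    apply Aff.ext
    change (1 : Γ ⋊[ψ] C).left * ψ (1 : Γ ⋊[ψ] C).right x.val = x.val
    simp
  mul_smul v w x := by
    apply Aff.ext
    change (v * w).left * ψ (v * w).right x.val = v.left * ψ v.right (w.left * ψ w.right x.val)
    simp [mul_assoc]

theorem aff_smul (w : Γ ⋊[ψ] C) (x : Γ) :
    w • (⟨x⟩ : Aff ψ) = ⟨w.left * ψ w.right x⟩ := rfl

/-- the group above `C₀` -/
def hat (B : Subgroup C) : Subgroup (Γ ⋊[ψ] C) := B.comap SemidirectProduct.rightHom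

theorem mem_hat {B : Subgroup C} {w : Γ ⋊[ψ] C} : w ∈ hat ψ B ↔ w.right ∈ B := Iff.rfl

theorem hat_le {B B' : Subgroup C} : hat ψ B ≤ hat ψ B' ↔ B ≤ B' :=
  Subgroup.comap_le_comap_of_surjective SemidirectProduct.rightHom_surjective

/-- the left cosets -/
def cos (Q : Subgroup Γ) : Setoid (Aff ψ) where
  r x y := x.val⁻¹ * y.val ∈ Q
  iseqv := ⟨fun x => by
      rw [inv_mul_cancel]
      exact Q.one_mem, fun {x y} h => by
      have h' := Q.inv_mem h
      rwa [_root_.mul_inv_rev, inv_inv] at h', fun {x y z} h h' => by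
      have h'' := Q.mul_mem h h'
      rwa [mul_assoc, mul_inv_cancel_left] at h''⟩

theorem cos_iff (Q : Subgroup Γ) (x y : Γ) : cos ψ Q ⟨x⟩ ⟨y⟩ ↔ x⁻¹ * y ∈ Q := Iff.rfl

theorem cos_le {Q Q' : Subgroup Γ} : cos ψ Q ≤ cos ψ Q' ↔ Q ≤ Q' := by
  constructor
  · intro h q hq
    have h1 : cos ψ Q ⟨1⟩ ⟨q⟩ := by
      rw [cos_iff, inv_one, one_mul]
      exact hq
    have h2 := h h1
    rwa [cos_iff, inv_one, one_mul] at h2
  · intro h x y hxy
    exact h hxy

theorem cos_inv {B : Subgroup C} {Q : Subgroup Γ} (h : ∀ a ∈ B, ∀ g ∈ Q, ψ a g ∈ Q) :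
    ∀ w ∈ hat ψ B, ∀ u v : Aff ψ, cos ψ Q u v → cos ψ Q (w • u) (w • v) := by
  rintro w hw ⟨u⟩ ⟨v⟩ huv
  rw [aff_smul, aff_smul, cos_iff, _root_.mul_inv_rev, mul_assoc, inv_mul_cancel_left, ← map_inv,
    ← map_mul]
  exact h _ hw _ huv

/-- every invariant pair comes from a pair of groups -/
theorem exists_pair {C₀ : Subgroup C} {B : Subgroup (Γ ⋊[ψ] C)} {θ : Setoid (Aff ψ)}
    (hB : hat ψ C₀ ≤ B) (hθ : ∀ w ∈ B, ∀ u v, θ u v → θ (w • u) (w • v)) :
    ∃ (B' : Subgroup C) (Q : Subgroup Γ), C₀ ≤ B' ∧ (∀ a ∈ B', ∀ g ∈ Q, ψ a g ∈ Q) ∧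
      hat ψ B' = B ∧ cos ψ Q = θ := by
  have hl : ∀ g : Γ, (SemidirectProduct.inl g : Γ ⋊[ψ] C) ∈ B := fun g =>
    hB (by rw [mem_hat, SemidirectProduct.right_inl]; exact C₀.one_mem)
  have hθl : ∀ (g x y : Γ), θ ⟨x⟩ ⟨y⟩ → θ ⟨g * x⟩ ⟨g * y⟩ := by
    intro g x y h
    have h1 := hθ _ (hl g) ⟨x⟩ ⟨y⟩ h
    rw [aff_smul, aff_smul] at h1
    simpa using h1
  let Q : Subgroup Γ :=
    { carrier := {g | θ ⟨1⟩ ⟨g⟩}
      mul_mem' := by
        intro a b ha hb
        have h1 := hθl a 1 b hb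
        rw [mul_one] at h1
        exact θ.trans ha h1
      one_mem' := θ.refl _
      inv_mem' := by
        intro a ha
        have h1 := hθl a⁻¹ 1 a ha
        rw [mul_one, inv_mul_cancel] at h1
        exact θ.symm h1 }
  have hQ : ∀ g, g ∈ Q ↔ θ ⟨1⟩ ⟨g⟩ := fun g => Iff.rfl
  have hr : ∀ w ∈ B, (SemidirectProduct.inr w.right : Γ ⋊[ψ] C) ∈ B := by
    intro w hw
    have h1 := B.mul_mem (hl w.left⁻¹) hw
    have h2 : (SemidirectProduct.inl w.left⁻¹ : Γ ⋊[ψ] C) * w =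
        SemidirectProduct.inr w.right := by
      apply SemidirectProduct.ext
      · simp
      · simp
    rwa [h2] at h1
  have hw : ∀ w : Γ ⋊[ψ] C, w ∈ B ↔ (SemidirectProduct.inr w.right : Γ ⋊[ψ] C) ∈ B := by
    intro w
    refine ⟨hr w, fun h => ?_⟩
    have h1 := B.mul_mem (hl w.left) h
    rwa [SemidirectProduct.inl_left_mul_inr_right] at h1
  refine ⟨B.comap SemidirectProduct.inr, Q, ?_, ?_, ?_, ?_⟩
  · intro a ha
    exact hB (by rw [mem_hat, SemidirectProduct.right_inr]; exact ha)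
  · intro a ha g hg
    have h1 := hθ _ ha ⟨1⟩ ⟨g⟩ hg
    rw [aff_smul, aff_smul] at h1
    rw [hQ]
    simpa using h1
  · ext w
    rw [mem_hat, Subgroup.mem_comap, ← hw]
  · ext x y
    obtain ⟨x⟩ := x
    obtain ⟨y⟩ := y
    change x⁻¹ * y ∈ Q ↔ θ ⟨x⟩ ⟨y⟩
    rw [hQ]
    constructor
    · intro h
      have h1 := hθl x 1 _ h
      rwa [mul_one, mul_inv_cancel_left] at h1
    · intro h
      have h1 := hθl x⁻¹ x y h
      rwa [inv_mul_cancel] at h1

/-- pairs with `K` down -/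
theorem op_iso (C₀ : Subgroup C) :
    Nonempty (GroupPairsOp ψ ⊥ C₀ ≃o PairEq (Aff ψ) (hat ψ C₀)) := by
  let t : GroupPairsOp ψ ⊥ C₀ → PairEq (Aff ψ) (hat ψ C₀) := fun x =>
    ⟨(hat ψ x.1.1, OrderDual.toDual (cos ψ (OrderDual.ofDual x.1.2))),
      (hat_le ψ).mpr x.2.1, cos_inv ψ x.2.2.2⟩
  have ht : ∀ x y, t x ≤ t y ↔ x ≤ y := by
    intro x y
    exact and_congr (hat_le ψ) (cos_le ψ)
  refine ⟨RelIso.ofSurjective (OrderEmbedding.ofMapLEIff t ht) ?_⟩
  rintro ⟨⟨B, θ⟩, hB, hθ⟩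
  obtain ⟨B', Q, h1, h2, h3, h4⟩ := exists_pair ψ hB hθ
  exact ⟨⟨(B', OrderDual.toDual Q), h1, bot_le, h2⟩, Subtype.ext (Prod.ext h3 h4)⟩

/-- pairs with `K` up -/
theorem up_iso (C₀ : Subgroup C) :
    Nonempty (GroupPairs ψ ⊥ C₀ ≃o PairEqUp (Aff ψ) (hat ψ C₀)) := by
  let t : GroupPairs ψ ⊥ C₀ → PairEqUp (Aff ψ) (hat ψ C₀) := fun x =>
    ⟨(hat ψ x.1.1, cos ψ x.1.2), (hat_le ψ).mpr x.2.1, cos_inv ψ x.2.2.2⟩
  have ht : ∀ x y, t x ≤ t y ↔ x ≤ y := by
    intro x y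
    exact and_congr (hat_le ψ) (cos_le ψ)
  refine ⟨RelIso.ofSurjective (OrderEmbedding.ofMapLEIff t ht) ?_⟩
  rintro ⟨⟨B, θ⟩, hB, hθ⟩
  obtain ⟨B', Q, h1, h2, h3, h4⟩ := exists_pair ψ hB hθ
  exact ⟨⟨(B', Q), h1, bot_le, h2⟩, Subtype.ext (Prod.ext h3 h4)⟩

end aff

end Vale.Agent.P183.H528
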