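import Vale.Agent.P183.R2.H528.Both

/-!
Group intervals are the lattices of intermediate rings closed under a group of automorphisms.
-/

namespace Vale.Agent.P183.H528

open Matrix

/-- the dual of a group interval is a group interval -/
theorem gi_dual {L : Type} [LE L] (h : GroupInterval L) : GroupInterval Lᵒᵈ := by
  obtain ⟨G, hG, hf, H, ⟨e⟩⟩ := h
  let ψ : PUnit.{1} →* MulAut G := 1
  let e1 : (Over H)ᵒᵈ ≃o GroupPairsOp ψ H ⊤ :=
    { toFun := fun K => ⟨(⊤, OrderDual.toDual (OrderDual.ofDual K).1), le_rfl,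
        (OrderDual.ofDual K).2, fun _ _ _ hg => hg⟩
      invFun := fun p => OrderDual.toDual ⟨OrderDual.ofDual p.1.2, p.2.2.1⟩
      left_inv := fun _ => rfl
      right_inv := fun p => Subtype.ext (Prod.ext (top_le_iff.mp p.2.1).symm rfl)
      map_rel_iff' := by
        intro K K'
        exact ⟨fun h => h.2, fun h => ⟨le_rfl, h⟩⟩ }
  exact gi_congr (e.dual.trans e1) (op_interval ψ H (fun _ _ hg => hg) ⊤)

section auto

variable {G : Type} [Group G] {H : Subgroup G}

/-- the cosets of `K` as classes of cosets of `H` -/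
def kerOf (K : Over H) : Setoid (G ⧸ H) := Setoid.ker (Subgroup.quotientMapOfLE K.2)

theorem kerOf_mk (K : Over H) (x y : G) :
    kerOf K (x : G ⧸ H) (y : G ⧸ H) ↔ x⁻¹ * y ∈ K.1 := by
  rw [← QuotientGroup.eq]
  rfl

theorem kerOf_smul (K : Over H) (g : G) (a b : G ⧸ H) (h : kerOf K a b) :
    kerOf K (g • a) (g • b) := by
  induction a using QuotientGroup.induction_on with | H x => ?_
  induction b using QuotientGroup.induction_on with | H y => ?_
  rw [kerOf_mk] at h
  have h1 : g • (x : G ⧸ H) = ((g * x : G) : G ⧸ H) := rfl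
  have h2 : g • (y : G ⧸ H) = ((g * y : G) : G ⧸ H) := rfl
  rw [h1, h2, kerOf_mk, _root_.mul_inv_rev, mul_assoc, inv_mul_cancel_left]
  exact h

theorem kerOf_le {K K' : Over H} : kerOf K ≤ kerOf K' ↔ K ≤ K' := by
  constructor
  · intro h g hg
    have h1 : kerOf K ((1 : G) : G ⧸ H) (g : G ⧸ H) := by
      rw [kerOf_mk, inv_one, one_mul]
      exact hg
    have h2 := h h1
    rwa [kerOf_mk, inv_one, one_mul] at h2
  · intro h a b hab
    induction a using QuotientGroup.induction_on with | H x => ?_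
    induction b using QuotientGroup.induction_on with | H y => ?_
    rw [kerOf_mk] at hab ⊢
    exact h hab

theorem auto_iso [Finite G] (H : Subgroup G) :
    Nonempty ((Over H)ᵒᵈ ≃o
      AutSub (⊥ : Subring (G ⧸ H → ZMod 2)) (funAct (G ⧸ H) G).range) := by
  let t : (Over H)ᵒᵈ → AutSub (⊥ : Subring (G ⧸ H → ZMod 2)) (funAct (G ⧸ H) G).range :=
    fun K => ⟨constRing (kerOf (OrderDual.ofDual K)), bot_le, by
      rintro _ ⟨g, rfl⟩ u hu y z hyz
      rw [funAct_apply, funAct_apply]
      exact hu _ _ (kerOf_smul _ g⁻¹ y z hyz)⟩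
  have ht : ∀ x y, t x ≤ t y ↔ x ≤ y := by
    intro x y
    exact constRing_le_iff.trans kerOf_le
  refine ⟨RelIso.ofSurjective (OrderEmbedding.ofMapLEIff t ht) ?_⟩
  rintro ⟨P, -, hP⟩
  let r : Setoid (G ⧸ H) :=
    { r := fun x y => ∀ u ∈ P, u x = u y
      iseqv := ⟨fun x u _ => rfl, fun h u hu => (h u hu).symm,
        fun h h' u hu => (h u hu).trans (h' u hu)⟩ }
  have hr : ∀ x y, r x y ↔ ∀ u ∈ P, u x = u y := fun x y => Iff.rfl
  have hr2 : ∀ (g x y : G), r (x : G ⧸ H) (y : G ⧸ H) →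
      r ((g * x : G) : G ⧸ H) ((g * y : G) : G ⧸ H) := by
    intro g x y hxy u hu
    have h1 := hxy (funAct (G ⧸ H) G g⁻¹ u) (hP _ ⟨g⁻¹, rfl⟩ u hu)
    rwa [funAct_apply, funAct_apply, inv_inv] at h1
  let K : Subgroup G :=
    { carrier := {g | r ((1 : G) : G ⧸ H) (g : G ⧸ H)}
      mul_mem' := by
        intro a b ha hb
        have h1 := hr2 a 1 b hb
        rw [mul_one] at h1
        exact r.trans ha h1
      one_mem' := r.refl _
      inv_mem' := by
        intro a ha
        have h1 := hr2 a⁻¹ 1 a ha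
        rw [mul_one, inv_mul_cancel] at h1
        exact r.symm h1 }
  have hK : ∀ g, g ∈ K ↔ r ((1 : G) : G ⧸ H) (g : G ⧸ H) := fun g => Iff.rfl
  have hHK : H ≤ K := by
    intro h hh
    rw [hK]
    have h1 : ((1 : G) : G ⧸ H) = (h : G ⧸ H) := by
      rw [QuotientGroup.eq, inv_one, one_mul]
      exact hh
    rw [← h1]
  refine ⟨OrderDual.toDual ⟨K, hHK⟩, Subtype.ext ?_⟩
  change constRing (kerOf ⟨K, hHK⟩) = P
  rw [← eq_constRing P r hr]
  congr 1
  ext a b
  induction a using QuotientGroup.induction_on with | H x => ?_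
  induction b using QuotientGroup.induction_on with | H y => ?_
  rw [kerOf_mk, hK]
  constructor
  · intro h
    have h1 := hr2 x 1 _ h
    rwa [mul_one, mul_inv_cancel_left] at h1
  · intro h
    have h1 := hr2 x⁻¹ x y h
    rwa [inv_mul_cancel] at h1

end auto

/-- group intervals = lattices of intermediate rings closed under a group of automorphisms -/
theorem gi_iff (L : Type) [LE L] : GroupInterval L ↔
    ∃ (R : Type) (_ : CommRing R) (_ : Finite R) (S : Subring R) (Γ : Subgroup (R ≃+* R)),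
      Nonempty (L ≃o AutSub S Γ) := by
  constructor
  · intro h
    obtain ⟨G, hG, hf, H, ⟨e⟩⟩ := gi_dual h
    obtain ⟨e'⟩ := auto_iso H
    exact ⟨G ⧸ H → ZMod 2, inferInstance, inferInstance, ⊥, _,
      ⟨((OrderIso.dualDual L).trans e.dual).trans e'⟩⟩
  · rintro ⟨R, _, _, S, Γ, ⟨e⟩⟩
    exact gi_congr e (semi_iso' S Γ)

end Vale.Agent.P183.H528
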