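import Vale.Agent.P183.R2.H528.Aff

/-!
Pairs in both orders are group intervals.
-/

namespace Vale.Agent.P183.H528

open Matrix

section group

variable {Γ C : Type} [Group Γ] [Group C] (ψ : C →* MulAut Γ)

theorem finite_semi [Finite Γ] [Finite C] : Finite (Γ ⋊[ψ] C) :=
  Finite.of_injective (fun x => (x.left, x.right)) fun x y h => by
    have h1 := congrArg Prod.fst h
    have h2 := congrArg Prod.snd h
    exact SemidirectProduct.ext h1 h2

theorem finite_aff [Finite Γ] : Finite (Aff ψ) :=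
  Finite.of_injective (fun x => x.val) fun _ _ h => Aff.ext h

theorem op_interval0 [Finite Γ] [Finite C] (C₀ : Subgroup C) :
    GroupInterval (GroupPairsOp ψ ⊥ C₀) := by
  have h1 := finite_semi ψ
  have h2 := finite_aff ψ
  obtain ⟨e⟩ := op_iso ψ C₀
  exact gi_congr e (pairEq_interval (X := Aff ψ) (hat ψ C₀))

/-- pairs `(B, K)` with `K` down form a group interval, if `H` is invariant -/
theorem op_interval [Finite Γ] [Finite C] (H : Subgroup Γ) (hH : ∀ a, ∀ g ∈ H, ψ a g ∈ H)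
    (C₀ : Subgroup C) : GroupInterval (GroupPairsOp ψ H C₀) := by
  let u : GroupPairsOp ψ ⊥ C₀ := ⟨(⊤, OrderDual.toDual H), le_top, bot_le, fun a _ => hH a⟩
  let e : GroupPairsOp ψ H C₀ ≃o {x : GroupPairsOp ψ ⊥ C₀ // x ≤ u} :=
    { toFun := fun x => ⟨⟨x.1, x.2.1, bot_le, x.2.2.2⟩, le_top, x.2.2.1⟩
      invFun := fun x => ⟨x.1.1, x.1.2.1, x.2.2, x.1.2.2.2⟩
      left_inv := fun _ => rfl
      right_inv := fun _ => rfl
      map_rel_iff' := Iff.rfl }
  exact gi_congr e (gi_Iic (op_interval0 ψ C₀) u)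

end group

section ring

variable {R : Type} [CommRing R] {A : Type} [Group A]

theorem ringOp_iso [Finite R] (S : Subring R) (A₀ : Subgroup A) (φ : A →* (R ≃+* R)) :
    Nonempty (PairSubOp S A₀ φ ≃o
      GroupPairsOp (actSL ((Nat.card (Set R)).factorial + 1) φ) (slOf S) A₀) := by
  let N : ℕ := (Nat.card (Set R)).factorial + 1
  have hN : 2 ≤ N := by
    have := Nat.factorial_pos (Nat.card (Set R))
    omega
  let t : PairSubOp S A₀ φ → GroupPairsOp (actSL N φ) (slOf S) A₀ := fun x =>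
    ⟨(x.1.1, OrderDual.toDual (slOf (OrderDual.ofDual x.1.2))), x.2.1,
      (slOf_le_iff (N := N) hN).mpr x.2.2.1, fun a ha g hg i j => x.2.2.2 a ha _ (hg i j)⟩
  have ht : ∀ x y, t x ≤ t y ↔ x ≤ y := by
    intro x y
    exact and_congr Iff.rfl (slOf_le_iff (N := N) hN)
  refine ⟨RelIso.ofSurjective (OrderEmbedding.ofMapLEIff t ht) ?_⟩
  rintro ⟨⟨B, Q⟩, hB, hQ, hinv⟩
  obtain ⟨P, hSP, hPL, hP⟩ := between (N := N) rfl S (OrderDual.ofDual Q) hQ
  have h01 : (⟨0, by omega⟩ : Fin N) ≠ ⟨1, by omega⟩ := by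
    intro h
    have := congrArg Fin.val h
    simp at this
  have hPinv : ∀ a ∈ B, ∀ r ∈ P, φ a r ∈ P := by
    intro a ha r hr
    have h1 : sel h01 r ∈ slOf P := (sel_mem_iff h01 r P).mpr hr
    rw [hPL] at h1
    have h2 := hinv a ha _ h1
    change actSL N φ a (sel h01 r) ∈ OrderDual.ofDual Q at h2
    rw [actSL_sel, ← hPL] at h2
    exact (sel_mem_iff h01 _ P).mp h2
  exact ⟨⟨(B, OrderDual.toDual P), hB, hSP, hPinv⟩, Subtype.ext (Prod.ext rfl hPL)⟩

/-- pairs `(B, P)` with `P` down form a group interval, if `S` is invariant -/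
theorem ringOp_interval [Finite R] [Finite A] (S : Subring R) (A₀ : Subgroup A)
    (φ : A →* (R ≃+* R)) (hS : ∀ a, ∀ r ∈ S, φ a r ∈ S) : GroupInterval (PairSubOp S A₀ φ) := by
  obtain ⟨e⟩ := ringOp_iso S A₀ φ
  exact gi_congr e (op_interval (actSL ((Nat.card (Set R)).factorial + 1) φ) (slOf S)
    (fun a g hg i j => hS a _ (hg i j)) A₀)

/-- pairs `(B, θ)` with `θ` up form a group interval -/
theorem eqUp_interval {X : Type} [MulAction A X] [Finite X] [Finite A] (A₀ : Subgroup A) :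
    GroupInterval (PairEqUp X A₀) := by
  let t : PairEqUp X A₀ → PairSubOp (⊥ : Subring (X → ZMod 2)) A₀ (funAct X A) := fun x =>
    ⟨(x.1.1, OrderDual.toDual (constRing x.1.2)), x.2.1, bot_le, by
      intro a ha u hu y z hyz
      change funAct X A a u y = funAct X A a u z
      rw [funAct_apply, funAct_apply]
      exact hu _ _ (x.2.2 a⁻¹ (x.1.1.inv_mem ha) y z hyz)⟩
  have ht : ∀ x y, t x ≤ t y ↔ x ≤ y := by
    intro x y
    exact and_congr Iff.rfl constRing_le_iff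
  have hs : Function.Surjective t := by
    rintro ⟨⟨B, P⟩, hB, -, hP⟩
    let P' : Subring (X → ZMod 2) := OrderDual.ofDual P
    let r : Setoid X :=
      { r := fun x y => ∀ u ∈ P', u x = u y
        iseqv := ⟨fun x u _ => rfl, fun h u hu => (h u hu).symm,
          fun h h' u hu => (h u hu).trans (h' u hu)⟩ }
    have hr : ∀ x y, r x y ↔ ∀ u ∈ P', u x = u y := fun x y => Iff.rfl
    have hr2 : ∀ a ∈ B, ∀ x y : X, r x y → r (a • x) (a • y) := by
      intro a ha x y hxy u hu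
      have h1 := hxy (funAct X A a⁻¹ u) (hP a⁻¹ (B.inv_mem ha) u hu)
      rwa [funAct_apply, funAct_apply, inv_inv] at h1
    exact ⟨⟨(B, r), hB, hr2⟩, Subtype.ext (Prod.ext rfl (eq_constRing P' r hr))⟩
  exact gi_congr (RelIso.ofSurjective (OrderEmbedding.ofMapLEIff t ht) hs)
    (ringOp_interval _ A₀ _ (fun a r hr => by
      obtain ⟨n, rfl⟩ := hr
      exact ⟨n, by simp⟩))

end ring

section group

variable {G A : Type} [Group G] [Group A]

/-- pairs `(B, K)` with `K` up form a group interval -/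
theorem up_interval [Finite G] [Finite A] (φ : A →* MulAut G) (H : Subgroup G)
    (A₀ : Subgroup A) : GroupInterval (GroupPairs φ H A₀) := by
  have h1 := finite_semi φ
  have h2 := finite_aff φ
  let H' : Subgroup G := sInf {K : Subgroup G | H ≤ K ∧ ∀ a ∈ A₀, ∀ g ∈ K, φ a g ∈ K}
  have hH' : ∀ a ∈ A₀, ∀ g ∈ H', φ a g ∈ H' := by
    intro a ha g hg
    rw [Subgroup.mem_sInf] at hg ⊢
    intro K hK
    exact hK.2 a ha g (hg K hK)
  have hHH' : H ≤ H' := le_sInf fun K hK => hK.1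
  obtain ⟨e⟩ := up_iso φ A₀
  let u : GroupPairs φ ⊥ A₀ := ⟨(A₀, H'), le_refl _, bot_le, hH'⟩
  let e' : GroupPairs φ H A₀ ≃o {x : GroupPairs φ ⊥ A₀ // u ≤ x} :=
    { toFun := fun x => ⟨⟨x.1, x.2.1, bot_le, x.2.2.2⟩, x.2.1,
        sInf_le ⟨x.2.2.1, fun a ha => x.2.2.2 a (x.2.1 ha)⟩⟩
      invFun := fun x => ⟨x.1.1, x.1.2.1, hHH'.trans x.2.2, x.1.2.2.2⟩
      left_inv := fun _ => rfl
      right_inv := fun _ => rfl
      map_rel_iff' := Iff.rfl }
  exact gi_congr e' (gi_Ici (gi_congr e (eqUp_interval (X := Aff φ) (hat φ A₀))) u)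

end group

end Vale.Agent.P183.H528
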