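import Mathlib

/-!
The lattices and groups of the statement.
-/

namespace Vale.Agent.P183.H528

/-- The set of all subrings `P` of `R` which contain `S`, ordered by inclusion. -/
abbrev Mid {R : Type} [CommRing R] (S : Subring R) : Type := {P : Subring R // S ≤ P}

/-- The set of all subrings `P` of `R` which contain `S` and are mapped into themselves by all
endomorphisms in `F`, ordered by inclusion. -/
abbrev OpSub {R : Type} [CommRing R] (S : Subring R) (F : Set (R →+* R)) : Type :=
  {P : Subring R // S ≤ P ∧ ∀ φ ∈ F, ∀ x ∈ P, φ x ∈ P}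

/-- The set of all subrings `P` of `R` which contain `S` and are mapped into themselves by all
automorphisms in the group `Γ`, ordered by inclusion. -/
abbrev AutSub {R : Type} [CommRing R] (S : Subring R) (Γ : Subgroup (R ≃+* R)) : Type :=
  {P : Subring R // S ≤ P ∧ ∀ γ ∈ Γ, ∀ x ∈ P, γ x ∈ P}

/-- The set of all subgroups of `G` which contain `H`, ordered by inclusion. -/
abbrev Over {G : Type} [Group G] (H : Subgroup G) : Type := {K : Subgroup G // H ≤ K}

/-- a matrix with entries in a subring comes from the subring -/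
def lift {N : ℕ} {R : Type} [CommRing R] (P : Subring R) (M : Matrix (Fin N) (Fin N) R)
    (h : ∀ i j, M i j ∈ P) : Matrix (Fin N) (Fin N) P := Matrix.of fun i j => ⟨M i j, h i j⟩

theorem lift_map {N : ℕ} {R : Type} [CommRing R] (P : Subring R) (M : Matrix (Fin N) (Fin N) R)
    (h : ∀ i j, M i j ∈ P) : P.subtype.mapMatrix (lift P M h) = M := by
  ext i j
  rfl

theorem slOf_mul {N : ℕ} {R : Type} [CommRing R] (P : Subring R)
    (a b : Matrix.SpecialLinearGroup (Fin N) R) (ha : ∀ i j, a.1 i j ∈ P)
    (hb : ∀ i j, b.1 i j ∈ P) (i j : Fin N) : (a * b).1 i j ∈ P := by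
  have : (a * b).1 = a.1 * b.1 := rfl
  rw [this, Matrix.mul_apply]
  exact sum_mem fun l _ => P.mul_mem (ha i l) (hb l j)

theorem slOf_one {N : ℕ} {R : Type} [CommRing R] (P : Subring R) (i j : Fin N) :
    (1 : Matrix.SpecialLinearGroup (Fin N) R).1 i j ∈ P := by
  have : (1 : Matrix.SpecialLinearGroup (Fin N) R).1 = 1 := rfl
  rw [this, Matrix.one_apply]
  split_ifs
  · exact P.one_mem
  · exact P.zero_mem

theorem slOf_inv {N : ℕ} {R : Type} [CommRing R] (P : Subring R)
    (a : Matrix.SpecialLinearGroup (Fin N) R) (ha : ∀ i j, a.1 i j ∈ P) (i j : Fin N) :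
    (a⁻¹).1 i j ∈ P := by
  have h1 : (a⁻¹).1 = Matrix.adjugate a.1 := rfl
  have h2 := RingHom.map_adjugate P.subtype (lift P a.1 ha)
  rw [lift_map] at h2
  rw [h1, ← h2]
  exact ((lift P a.1 ha).adjugate i j).2

/-- `SL_N(P)`: the subgroup of all elements of `SL_N(R)` whose entries lie in `P`. -/
def slOf {N : ℕ} {R : Type} [CommRing R] (P : Subring R) :
    Subgroup (Matrix.SpecialLinearGroup (Fin N) R) where
  carrier := {g | ∀ i j, g.1 i j ∈ P}
  mul_mem' := fun ha hb => slOf_mul P _ _ ha hb
  one_mem' := slOf_one P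
  inv_mem' := fun ha => slOf_inv P _ ha

end Vale.Agent.P183.H528
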