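import Vale.Agent.P183.R2.H528.Ring

/-!
All entries of an element of `L` lie in the ring of `L`.
-/

namespace Vale.Agent.P183.H528

open Matrix

variable {n : Type} [DecidableEq n] [Fintype n] {R : Type} [CommRing R]

/-- the subring of coefficients, with all side conditions from one inequality -/
theorem third [Finite R] (hcard : Nat.card R + 2 ≤ Fintype.card n) :
    ∀ k l : n, ∃ m : n, m ≠ k ∧ m ≠ l := by
  classical
  have : 0 < Nat.card R := Nat.card_pos
  intro k l
  have h1 : ({k, l} : Finset n) ≠ Finset.univ := by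
    intro h
    have h2 := Finset.card_le_two (a := k) (b := l)
    rw [h, Finset.card_univ] at h2
    omega
  obtain ⟨m, hm⟩ : ∃ m, m ∉ ({k, l} : Finset n) := by
    by_contra hc
    push Not at hc
    exact h1 (Finset.eq_univ_iff_forall.mpr hc)
  exact ⟨m, by simp at hm; tauto, by simp at hm; tauto⟩

variable {L : Subgroup (SpecialLinearGroup n R)}

/-- the entries of the inverse -/
theorem mul_inv_entries (g : SpecialLinearGroup n R) (i j : n) :
    ∑ m, g.1 i m * (g⁻¹).1 m j = (1 : Matrix n n R) i j := by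
  have h := congrArg Subtype.val (mul_inv_cancel g)
  have h2 : g.1 * (g⁻¹).1 = 1 := h
  rw [← h2, Matrix.mul_apply]

theorem inv_mul_entries (g : SpecialLinearGroup n R) (i j : n) :
    ∑ m, (g⁻¹).1 i m * g.1 m j = (1 : Matrix n n R) i j := by
  have h := congrArg Subtype.val (inv_mul_cancel g)
  have h2 : (g⁻¹).1 * g.1 = 1 := h
  rw [← h2, Matrix.mul_apply]

theorem co_entries_ne [Finite R] (hcard : Nat.card R + 2 ≤ Fintype.card n) (h1 : Co L (1 : R))
    {g : SpecialLinearGroup n R} (hg : g ∈ L) (l i j m : n) (hij : i ≠ j) :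
    Co L (g.1 l i * (g⁻¹).1 j m) := by
  have h2 : g.1 * (g⁻¹).1 = 1 := congrArg Subtype.val (mul_inv_cancel g)
  have h3 : InL L (g.1 * tv (Pi.single i 1) (Pi.single j 1) * (g⁻¹).1) := by
    have e1 : InL L g.1 := ⟨g, hg, rfl⟩
    have e2 : InL L (g⁻¹).1 := ⟨g⁻¹, L.inv_mem hg, rfl⟩
    exact (e1.mul (h1 i j hij)).mul e2
  rw [mul_tv_mul _ _ h2] at h3
  have h4 : ((Pi.single j (1 : R) : n → R) ᵥ* (g⁻¹).1) ⬝ᵥ (g.1 *ᵥ (Pi.single i (1 : R))) = 0 := by
    rw [← dotProduct_mulVec, mulVec_mulVec]
    have h5 : (g⁻¹).1 * g.1 = 1 := congrArg Subtype.val (inv_mul_cancel g)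
    rw [h5, one_mulVec]
    simp [hij.symm]
  have h6 := co_of_tv hcard h1 h4 h3 l m
  simpa using h6

theorem co_entries [Finite R] (hcard : Nat.card R + 2 ≤ Fintype.card n) (h1 : Co L (1 : R))
    {g : SpecialLinearGroup n R} (hg : g ∈ L) (l i j m : n) :
    Co L (g.1 l i * (g⁻¹).1 j m) := by
  by_cases hij : i = j
  · obtain ⟨j', hj', -⟩ := third hcard i j
    have h2 : g.1 l i * (g⁻¹).1 j m =
        ∑ m', (g.1 l i * (g⁻¹).1 j' m') * (g.1 m' j' * (g⁻¹).1 j m) := by
      have h3 := inv_mul_entries g j' j'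
      rw [Matrix.one_apply_eq] at h3
      calc g.1 l i * (g⁻¹).1 j m
          = (g.1 l i * (g⁻¹).1 j m) * ∑ m', (g⁻¹).1 j' m' * g.1 m' j' := by rw [h3, mul_one]
        _ = _ := by
          rw [Finset.mul_sum]
          exact Finset.sum_congr rfl fun _ _ => by ring
    rw [h2]
    have h4 : ∀ m' ∈ (Finset.univ : Finset n),
        (g.1 l i * (g⁻¹).1 j' m') * (g.1 m' j' * (g⁻¹).1 j m) ∈ coRing L (third hcard) h1 :=
      fun m' _ => mul_mem (co_entries_ne hcard h1 hg l i j' m' hj'.symm)
        (co_entries_ne hcard h1 hg m' j' j m (by rw [← hij]; exact hj'))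
    exact sum_mem h4
  · exact co_entries_ne hcard h1 hg l i j m hij

/-- a product of elements of a submodule -/
theorem prod_mem_pow {P A : Type} [CommRing P] [CommRing A] [Algebra P A] (C : Submodule P A)
    {ι : Type} (s : Finset ι) (f : ι → A) (h : ∀ i, f i ∈ C) : ∏ i ∈ s, f i ∈ C ^ s.card := by
  classical
  induction s using Finset.induction_on with
  | empty =>
    rw [Finset.prod_empty, Finset.card_empty, pow_zero]
    exact Submodule.one_le.mp le_rfl
  | insert a s ha ih =>
    rw [Finset.prod_insert ha, Finset.card_insert_of_notMem ha, pow_succ']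
    exact Submodule.mul_mem_mul (h a) ih

theorem det_mem_pow {P A : Type} [CommRing P] [CommRing A] [Algebra P A] (C : Submodule P A)
    (M : Matrix n n A) (h : ∀ i j, M i j ∈ C) : M.det ∈ C ^ Fintype.card n := by
  rw [Matrix.det_apply']
  refine sum_mem fun σ _ => ?_
  have h1 : ∏ i, M (σ i) i ∈ C ^ Fintype.card n := by
    have := prod_mem_pow C Finset.univ (fun i => M (σ i) i) fun i => h _ _
    rwa [Finset.card_univ] at this
  rcases Int.units_eq_one_or (Equiv.Perm.sign σ) with h2 | h2
  · rw [h2]; simpa using h1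
  · rw [h2]; simpa using h1

theorem card_units_le {P A : Type} [CommRing P] [CommRing A] [Algebra P A] [Finite A] :
    Nat.card (Submodule P A)ˣ ≤ Nat.card (Set A) := by
  have h1 : Function.Injective (fun u : (Submodule P A)ˣ => ((u : Submodule P A) : Set A)) :=
    fun u v h => Units.ext (SetLike.coe_injective h)
  exact Nat.card_le_card_of_injective _ h1

theorem finite_sub {P A : Type} [CommRing P] [CommRing A] [Algebra P A] [Finite A] :
    Finite (Submodule P A) := by
  exact Finite.of_injective (fun u : Submodule P A => (u : Set A)) SetLike.coe_injective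

/-- an invertible module of finite order prime to the power -/
theorem eq_one_of_pow {P A : Type} [CommRing P] [CommRing A] [Algebra P A] [Finite A]
    (C C' : Submodule P A) (h : C * C' = 1) (ha : C ^ ((Nat.card (Set A)).factorial + 1) = 1) :
    C = 1 := by
  have : Finite (Submodule P A) := finite_sub
  have hf : Finite (Submodule P A)ˣ := Finite.of_injective _ Units.val_injective
  let u : (Submodule P A)ˣ := Units.mkOfMulEqOne C C' h
  have h1 : Nat.card (Submodule P A)ˣ ∣ (Nat.card (Set A)).factorial :=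
    Nat.dvd_factorial Nat.card_pos card_units_le
  obtain ⟨c, hc⟩ := h1
  have h2 : u ^ (Nat.card (Set A)).factorial = 1 := by
    rw [hc, pow_mul, pow_card_eq_one', one_pow]
  have h3 : C ^ (Nat.card (Set A)).factorial = 1 := by
    have := congrArg Units.val h2
    simpa [u] using this
  rw [pow_succ, h3, one_mul] at ha
  exact ha

omit [DecidableEq n] [CommRing R] in
theorem card_ok [Finite R] (hc : Fintype.card n = (Nat.card (Set R)).factorial + 1) :
    Nat.card R + 2 ≤ Fintype.card n := by
  have : Fintype R := Fintype.ofFinite R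
  have h1 : Nat.card (Set R) = 2 ^ Nat.card R := by
    classical
    rw [Nat.card_eq_fintype_card, Fintype.card_set, Nat.card_eq_fintype_card]
  have h2 : Nat.card R < 2 ^ Nat.card R := Nat.lt_two_pow_self
  have h3 := Nat.self_le_factorial (Nat.card (Set R))
  omega

/-- all entries of elements of `L` lie in the ring of `L` -/
theorem entries_mem [Finite R] (hc : Fintype.card n = (Nat.card (Set R)).factorial + 1)
    (h1 : Co L (1 : R)) {g : SpecialLinearGroup n R} (hg : g ∈ L) (i j : n) :
    Co L (g.1 i j) := by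
  have hcard := card_ok hc
  set P : Subring R := coRing L (third hcard) h1 with hP
  let C : Submodule P R := Submodule.span P (Set.range fun x : n × n => g.1 x.1 x.2)
  let C' : Submodule P R := Submodule.span P (Set.range fun x : n × n => (g⁻¹).1 x.1 x.2)
  have mC : ∀ i j, g.1 i j ∈ C := fun i j => Submodule.subset_span ⟨(i, j), rfl⟩
  have mC' : ∀ i j, (g⁻¹).1 i j ∈ C' := fun i j => Submodule.subset_span ⟨(i, j), rfl⟩
  have h2 : C * C' ≤ 1 := by
    rw [Submodule.span_mul_span, Submodule.span_le]
    rintro _ ⟨_, ⟨x, rfl⟩, _, ⟨y, rfl⟩, rfl⟩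
    exact Submodule.mem_one.mpr ⟨⟨_, co_entries hcard h1 hg x.1 x.2 y.1 y.2⟩, rfl⟩
  have h3 : (1 : Submodule P R) ≤ C * C' := by
    rw [Submodule.one_le]
    have h4 := mul_inv_entries g i i
    rw [Matrix.one_apply_eq] at h4
    rw [← h4]
    exact sum_mem fun m _ => Submodule.mul_mem_mul (mC _ _) (mC' _ _)
  have h5 : C * C' = 1 := le_antisymm h2 h3
  have d1 : (1 : Submodule P R) ≤ C ^ Fintype.card n := by
    rw [Submodule.one_le]
    have := det_mem_pow C g.1 mC
    rwa [g.2] at this
  have d2 : (1 : Submodule P R) ≤ C' ^ Fintype.card n := by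
    rw [Submodule.one_le]
    have := det_mem_pow C' (g⁻¹).1 mC'
    rwa [(g⁻¹).2] at this
  have h6 : C ^ Fintype.card n = 1 := by
    refine le_antisymm ?_ d1
    calc C ^ Fintype.card n = C ^ Fintype.card n * 1 := (mul_one _).symm
      _ ≤ C ^ Fintype.card n * C' ^ Fintype.card n := mul_le_mul' le_rfl d2
      _ = 1 := by rw [← mul_pow, h5, one_pow]
  have h7 : C = 1 := eq_one_of_pow C C' h5 (by rw [← hc]; exact h6)
  have h8 : g.1 i j ∈ (1 : Submodule P R) := by rw [← h7]; exact mC i j
  obtain ⟨y, hy⟩ := Submodule.mem_one.mp h8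
  rw [← hy]
  exact y.2

end Vale.Agent.P183.H528
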