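import Vale.Agent.P183.R2.H528.Rep

/-!
Fibred pairs: the algebra on `I × X`.
-/

namespace Vale.Agent.P183.H528

section fib

variable {I J X M : Type}

/-- Pairs `(π, θ)`: `π` a congruence of the unary algebra `(I; e)`, `θ i` a congruence of the unary
algebra `(X; f)` for every `i`, equal for `π`-related `i`, and carried from `i` to `e i` by `σ`. -/
abbrev FibPairs (e : J → I → I) (f : M → X → X) (σ : J → X → X) : Type :=
  {p : Setoid I × (I → Setoid X) //
    (∀ j u v, p.1 u v → p.1 (e j u) (e j v)) ∧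
    (∀ i m x y, p.2 i x y → p.2 i (f m x) (f m y)) ∧
    (∀ u v, p.1 u v → p.2 u = p.2 v) ∧
    (∀ j i x y, p.2 i x y → p.2 (e j i) (σ j x) (σ j y))}

/-- the operations on `I × X` -/
def fibOps (e : J → I → I) (f : M → X → X) (σ : J → X → X) : (J ⊕ M) ⊕ X → I × X → I × X
  | Sum.inl (Sum.inl j) => fun z => (e j z.1, σ j z.2)
  | Sum.inl (Sum.inr m) => fun z => (z.1, f m z.2)
  | Sum.inr x => fun z => (z.1, x)

/-- the relation of a pair -/
def fibRel (π : Setoid I) (θ : I → Setoid X) (h : ∀ u v, π u v → θ u = θ v) :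
    Setoid (I × X) where
  r a b := π a.1 b.1 ∧ θ a.1 a.2 b.2
  iseqv := by
    refine ⟨fun a => ⟨π.refl _, (θ _).refl _⟩, fun {a b} hab => ⟨π.symm hab.1, ?_⟩,
      fun {a b c} hab hbc => ⟨π.trans hab.1 hbc.1, ?_⟩⟩
    · rw [← h _ _ hab.1]
      exact (θ _).symm hab.2
    · have h2 : θ a.1 b.2 c.2 := by
        rw [h _ _ hab.1]
        exact hbc.2
      exact (θ _).trans hab.2 h2

theorem fibRel_iff (π : Setoid I) (θ : I → Setoid X) (h : ∀ u v, π u v → θ u = θ v)
    (a b : I × X) : fibRel π θ h a b ↔ π a.1 b.1 ∧ θ a.1 a.2 b.2 := Iff.rfl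

/-- the congruence of a pair -/
def fibCon (e : J → I → I) (f : M → X → X) (σ : J → X → X) (p : FibPairs e f σ) :
    UCon (I × X) ((J ⊕ M) ⊕ X) (fibOps e f σ) :=
  ⟨fibRel p.1.1 p.1.2 p.2.2.2.1, by
    rintro ((j | m) | x) a b hab
    · exact ⟨p.2.1 j _ _ hab.1, p.2.2.2.2 j _ _ _ hab.2⟩
    · exact ⟨hab.1, p.2.2.1 _ m _ _ hab.2⟩
    · exact ⟨hab.1, (p.1.2 _).refl _⟩⟩

theorem fibCon_le_iff [Nonempty X] (e : J → I → I) (f : M → X → X) (σ : J → X → X)
    (p q : FibPairs e f σ) : fibCon e f σ p ≤ fibCon e f σ q ↔ p ≤ q := by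
  constructor
  · intro h
    refine ⟨fun u v huv => ?_, fun i x y hxy => ?_⟩
    · obtain ⟨x⟩ := ‹Nonempty X›
      have h1 : fibRel p.1.1 p.1.2 p.2.2.2.1 (u, x) (v, x) := ⟨huv, (p.1.2 u).refl _⟩
      exact (h h1).1
    · have h1 : fibRel p.1.1 p.1.2 p.2.2.2.1 (i, x) (i, y) := ⟨p.1.1.refl _, hxy⟩
      exact (h h1).2
  · intro h a b hab
    exact ⟨h.1 hab.1, h.2 a.1 hab.2⟩

theorem fibCon_surj [Nonempty X] (e : J → I → I) (f : M → X → X) (σ : J → X → X) :
    Function.Surjective (fibCon e f σ) := by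
  rintro ⟨r, hr⟩
  have h1 : ∀ j a b, r a b → r (e j a.1, σ j a.2) (e j b.1, σ j b.2) :=
    fun j a b h => hr (Sum.inl (Sum.inl j)) a b h
  have h2 : ∀ m a b, r a b → r (a.1, f m a.2) (b.1, f m b.2) :=
    fun m a b h => hr (Sum.inl (Sum.inr m)) a b h
  have h3 : ∀ x a b, r a b → r (a.1, x) (b.1, x) := fun x a b h => hr (Sum.inr x) a b h
  let π : Setoid I :=
    { r := fun u v => ∀ x, r (u, x) (v, x)
      iseqv := ⟨fun u x => r.refl _, fun h x => r.symm (h x),
        fun h h' x => r.trans (h x) (h' x)⟩ }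
  let θ : I → Setoid X := fun i =>
    { r := fun x y => r (i, x) (i, y)
      iseqv := ⟨fun x => r.refl _, fun h => r.symm h, fun h h' => r.trans h h'⟩ }
  have hπ : ∀ u v, π u v ↔ ∀ x, r (u, x) (v, x) := fun u v => Iff.rfl
  have hθ : ∀ i x y, θ i x y ↔ r (i, x) (i, y) := fun i x y => Iff.rfl
  have hsplit : ∀ a b, r a b ↔ π a.1 b.1 ∧ θ a.1 a.2 b.2 := by
    intro a b
    constructor
    · intro h
      have h4 : ∀ x, r (a.1, x) (b.1, x) := fun x => h3 x a b h
      exact ⟨h4, r.trans h (r.symm (h4 b.2))⟩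
    · rintro ⟨h4, h5⟩
      exact r.trans ((hθ _ _ _).mp h5) ((hπ _ _).mp h4 b.2)
  have c1 : ∀ j u v, π u v → π (e j u) (e j v) := by
    intro j u v huv
    obtain ⟨x⟩ := ‹Nonempty X›
    exact ((hsplit _ _).mp (h1 j (u, x) (v, x) (huv x))).1
  have c2 : ∀ i m x y, θ i x y → θ i (f m x) (f m y) := fun i m x y h => h2 m (i, x) (i, y) h
  have c3 : ∀ u v, π u v → θ u = θ v := by
    intro u v huv
    ext x y
    constructor
    · intro h
      exact r.trans (r.symm (huv x)) (r.trans h (huv y))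
    · intro h
      exact r.trans (huv x) (r.trans h (r.symm (huv y)))
  have c4 : ∀ j i x y, θ i x y → θ (e j i) (σ j x) (σ j y) :=
    fun j i x y h => h1 j (i, x) (i, y) h
  refine ⟨⟨(π, θ), c1, c2, c3, c4⟩, Subtype.ext ?_⟩
  change fibRel π θ c3 = r
  ext a b
  rw [fibRel_iff, hsplit]

/-- MASTER THEOREM: the lattice of fibred pairs is representable -/
theorem fib_representable [Finite I] [Nonempty I] [Finite X] [Nonempty X] [Finite J] [Finite M]
    (e : J → I → I) (f : M → X → X) (σ : J → X → X) : Representable (FibPairs e f σ) := by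
  let t : FibPairs e f σ ↪o UCon (I × X) ((J ⊕ M) ⊕ X) (fibOps e f σ) :=
    OrderEmbedding.ofMapLEIff (fibCon e f σ) (fibCon_le_iff e f σ)
  exact representable_of_unary (RelIso.ofSurjective t (fibCon_surj e f σ))

end fib

end Vale.Agent.P183.H528
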