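import Vale.Agent.P183.R2.H528.PairDefs
import Vale.Agent.P183.R2.H528.Fib
import Vale.Agent.P183.R2.H528.Dual
import Vale.Agent.P183.R2.H285.Ops

/-!
Two cases of the theorem on fibred pairs, in terms of lattices and of groups.
-/

namespace Vale.Agent.P183.H528

section const

theorem constPairs_representable (A : FiniteAlgebra) (Λ : Type) [LE Λ] (h : Representable Λ) :
    Representable (ConstPairs A Λ) := by
  obtain ⟨B, ⟨e⟩⟩ := h
  obtain ⟨e1⟩ := con_iso B
  have := A.finite_carrier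
  have := A.finite_index
  have := A.nonempty_carrier
  have := B.finite_carrier
  have := B.finite_index
  have hB := B.nonempty_carrier
  let g : Λ ≃o UCon B.carrier (TrI B) (trs B) := e.trans e1
  obtain ⟨x₀⟩ := hB
  let σ : TrI A → B.carrier → B.carrier := fun _ _ => x₀
  have hne : Nonempty B.carrier := ⟨x₀⟩
  let i : ConstPairs A Λ ≃o FibPairs (trs A) (trs B) σ :=
    { toFun := fun p => ⟨(p.1.1.1, fun i => (g (p.1.2 i)).1), (cong_iff_trs A _).mp p.1.1.2,
        fun i => (g (p.1.2 i)).2, fun u v h => congrArg (fun y => (g y).1) (p.2 u v h),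
        fun j i x y _ => (g (p.1.2 _)).1.refl _⟩
      invFun := fun q => ⟨(⟨q.1.1, (cong_iff_trs A _).mpr q.2.1⟩,
        fun i => g.symm ⟨q.1.2 i, q.2.2.1 i⟩), fun u v h =>
          congrArg g.symm (Subtype.ext (q.2.2.2.1 u v h))⟩
      left_inv := fun p => by
        apply Subtype.ext
        apply Prod.ext
        · rfl
        · funext i
          exact g.symm_apply_apply _
      right_inv := fun q => by
        apply Subtype.ext
        apply Prod.ext
        · rfl
        · funext i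
          exact congrArg Subtype.val (g.apply_symm_apply ⟨q.1.2 i, q.2.2.1 i⟩)
      map_rel_iff' := by
        intro p q
        constructor
        · intro h
          exact ⟨h.1, fun i => g.le_iff_le.mp (h.2 i)⟩
        · intro h
          exact ⟨h.1, fun i => g.le_iff_le.mpr (h.2 i)⟩ }
  exact representable_congr i (fib_representable (trs A) (trs B) σ)

end const

section group

variable {G A : Type} [Group G] [Group A]

/-- the subgroup of a pair -/
def gpOf (φ : A →* MulAut G) (B : Subgroup A) (K : Subgroup G)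
    (hK : ∀ a ∈ B, ∀ g ∈ K, φ a g ∈ K) : Subgroup (G ⋊[φ] A) where
  carrier := {x | x.left ∈ K ∧ x.right ∈ B}
  mul_mem' := by
    intro a b ha hb
    refine ⟨?_, ?_⟩
    · rw [SemidirectProduct.mul_left]
      exact K.mul_mem ha.1 (hK _ ha.2 _ hb.1)
    · rw [SemidirectProduct.mul_right]
      exact B.mul_mem ha.2 hb.2
  one_mem' := ⟨K.one_mem, B.one_mem⟩
  inv_mem' := by
    intro a ha
    refine ⟨?_, ?_⟩
    · rw [SemidirectProduct.inv_left]
      exact hK _ (B.inv_mem ha.2) _ (K.inv_mem ha.1)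
    · rw [SemidirectProduct.inv_right]
      exact B.inv_mem ha.2

theorem mem_gpOf {φ : A →* MulAut G} {B : Subgroup A} {K : Subgroup G}
    {hK : ∀ a ∈ B, ∀ g ∈ K, φ a g ∈ K} {x : G ⋊[φ] A} :
    x ∈ gpOf φ B K hK ↔ x.left ∈ K ∧ x.right ∈ B := Iff.rfl

/-- the projection to the complement -/
def proj (φ : A →* MulAut G) : G ⋊[φ] A →* G ⋊[φ] A :=
  SemidirectProduct.inr.comp SemidirectProduct.rightHom

theorem proj_apply (φ : A →* MulAut G) (x : G ⋊[φ] A) :
    proj φ x = SemidirectProduct.inr x.right := rfl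

theorem groupPairs0 [Finite G] [Finite A] (φ : A →* MulAut G) (H : Subgroup G)
    (A₀ : Subgroup A) (hH : ∀ a ∈ A₀, ∀ g ∈ H, φ a g ∈ H) :
    Representable (GroupPairs φ H A₀) := by
  have hW : Finite (G ⋊[φ] A) :=
    Finite.of_injective (fun x => (x.left, x.right)) fun x y h => by
      have h1 := congrArg Prod.fst h
      have h2 := congrArg Prod.snd h
      exact SemidirectProduct.ext h1 h2
  have hΦ : ∀ ψ ∈ ({proj φ} : Set (G ⋊[φ] A →* G ⋊[φ] A)), ∀ h ∈ gpOf φ A₀ H hH,
      ψ h ∈ gpOf φ A₀ H hH := by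
    rintro _ rfl h hh
    rw [proj_apply]
    exact ⟨H.one_mem, hh.2⟩
  let f : GroupPairs φ H A₀ →
      Vale.Agent.P183.R2.H285.Closed (gpOf φ A₀ H hH) {proj φ} := fun p =>
    ⟨gpOf φ p.1.1 p.1.2 p.2.2.2, fun x hx => ⟨p.2.2.1 hx.1, p.2.1 hx.2⟩, by
      rintro _ rfl x hx
      rw [proj_apply]
      exact ⟨p.1.2.one_mem, hx.2⟩⟩
  have hf : ∀ p q, f p ≤ f q ↔ p ≤ q := by
    intro p q
    constructor
    · intro h
      refine ⟨fun a ha => ?_, fun g hg => ?_⟩
      · have h1 : (SemidirectProduct.inr a : G ⋊[φ] A) ∈ gpOf φ p.1.1 p.1.2 p.2.2.2 :=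
          ⟨p.1.2.one_mem, ha⟩
        exact (h h1).2
      · have h1 : (SemidirectProduct.inl g : G ⋊[φ] A) ∈ gpOf φ p.1.1 p.1.2 p.2.2.2 :=
          ⟨hg, p.1.1.one_mem⟩
        exact (h h1).1
    · intro h x hx
      exact ⟨h.2 hx.1, h.1 hx.2⟩
  have hs : Function.Surjective f := by
    rintro ⟨M, hM, hπ⟩
    have hπ' : ∀ x ∈ M, (SemidirectProduct.inr x.right : G ⋊[φ] A) ∈ M :=
      fun x hx => hπ _ rfl x hx
    let B : Subgroup A := M.comap SemidirectProduct.inr
    let K : Subgroup G := M.comap SemidirectProduct.inl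
    have hB : ∀ a, a ∈ B ↔ (SemidirectProduct.inr a : G ⋊[φ] A) ∈ M := fun a => Iff.rfl
    have hK : ∀ g, g ∈ K ↔ (SemidirectProduct.inl g : G ⋊[φ] A) ∈ M := fun g => Iff.rfl
    have hinv : ∀ a ∈ B, ∀ g ∈ K, φ a g ∈ K := by
      intro a ha g hg
      rw [hK, SemidirectProduct.inl_aut]
      rw [map_inv]
      exact M.mul_mem (M.mul_mem ha hg) (M.inv_mem ha)
    refine ⟨⟨(B, K), fun a ha => hM ⟨H.one_mem, ha⟩, fun g hg => hM ⟨hg, A₀.one_mem⟩, hinv⟩,
      Subtype.ext ?_⟩
    change gpOf φ B K hinv = M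
    ext x
    rw [mem_gpOf, hB, hK]
    have h3 := SemidirectProduct.inl_left_mul_inr_right x
    constructor
    · rintro ⟨h4, h5⟩
      rw [← h3]
      exact M.mul_mem h4 h5
    · intro h4
      have h5 := hπ' x h4
      refine ⟨?_, h5⟩
      rw [← h3] at h4
      exact (M.mul_mem_cancel_right h5).mp h4
  exact representable_congr (RelIso.ofSurjective (OrderEmbedding.ofMapLEIff f hf) hs)
    (Vale.Agent.P183.R2.H285.representable_closed _ _ hΦ)

theorem groupPairs_representable [Finite G] [Finite A] (φ : A →* MulAut G) (H : Subgroup G)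
    (A₀ : Subgroup A) : Representable (GroupPairs φ H A₀) := by
  let H' : Subgroup G := sInf {K : Subgroup G | H ≤ K ∧ ∀ a ∈ A₀, ∀ g ∈ K, φ a g ∈ K}
  have hH' : ∀ a ∈ A₀, ∀ g ∈ H', φ a g ∈ H' := by
    intro a ha g hg
    rw [Subgroup.mem_sInf] at hg ⊢
    intro K hK
    exact hK.2 a ha g (hg K hK)
  have hHH' : H ≤ H' := le_sInf fun K hK => hK.1
  have hle : ∀ (B : Subgroup A) (K : Subgroup G), A₀ ≤ B → (∀ a ∈ B, ∀ g ∈ K, φ a g ∈ K) →
      (H' ≤ K ↔ H ≤ K) :=
    fun B K hB hK => ⟨fun h => hHH'.trans h, fun h => sInf_le ⟨h, fun a ha => hK a (hB ha)⟩⟩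
  let e' : GroupPairs φ H A₀ ≃o GroupPairs φ H' A₀ :=
    { toFun := fun x => ⟨x.1, x.2.1, (hle _ _ x.2.1 x.2.2.2).mpr x.2.2.1, x.2.2.2⟩
      invFun := fun x => ⟨x.1, x.2.1, (hle _ _ x.2.1 x.2.2.2).mp x.2.2.1, x.2.2.2⟩
      left_inv := fun _ => rfl
      right_inv := fun _ => rfl
      map_rel_iff' := Iff.rfl }
  exact representable_congr e' (groupPairs0 φ H' A₀ hH')

end group

end Vale.Agent.P183.H528
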