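import Vale.Agent.P183.R2.H528.Defs

/-!
Group intervals.
-/

namespace Vale.Agent.P183.H528

/-- `L` is isomorphic, as an ordered set, to the interval of all subgroups `K` with `H ≤ K ≤ G`,
for some finite group `G` and some subgroup `H`. -/
def GroupInterval (L : Type) [LE L] : Prop :=
  ∃ (G : Type) (_ : Group G) (_ : Finite G) (H : Subgroup G), Nonempty (L ≃o Over H)

end Vale.Agent.P183.H528
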