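import Vale.Agent.P183.R2.H528.Ring

/-!
`SL_n(P)` is generated by elementary transvections for a finite commutative ring `P`.
-/

namespace Vale.Agent.P183.H528

open Matrix

/-- stable range one for finite commutative rings -/
theorem stable {P : Type} [CommRing P] [Finite P] (a b x : P) (h : x * a + b = 1) :
    ∃ t u : P, (a + t * b) * u = 1 := by
  classical
  -- a power of `a` is idempotent
  obtain ⟨m, hm, he⟩ : ∃ m : ℕ, 0 < m ∧ a ^ m * a ^ m = a ^ m := by
    obtain ⟨i, j, hij, h1⟩ : ∃ i j : ℕ, i < j ∧ a ^ i = a ^ j := by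
      obtain ⟨i, j, hne, h1⟩ := Finite.exists_ne_map_eq_of_infinite (fun k : ℕ => a ^ k)
      rcases lt_or_gt_of_ne hne with h2 | h2
      · exact ⟨i, j, h2, h1⟩
      · exact ⟨j, i, h2, h1.symm⟩
    -- a^i = a^(i + d), d = j - i > 0 ; m = (i+1) d
    obtain ⟨d, hd, rfl⟩ : ∃ d, 0 < d ∧ j = i + d := ⟨j - i, by omega, by omega⟩
    have h2 : ∀ k, a ^ (i + k * d) = a ^ i := by
      intro k
      induction k with
      | zero => simp
      | succ k ih =>
        have e : i + (k + 1) * d = (i + d) + k * d := by ring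
        rw [e, pow_add, ← h1, ← pow_add, ih]
    refine ⟨(i + 1) * d, by positivity, ?_⟩
    have h3 : i ≤ (i + 1) * d := by nlinarith
    obtain ⟨r, hr⟩ := Nat.exists_eq_add_of_le h3
    have h4 := h2 (i + 1)
    calc a ^ ((i + 1) * d) * a ^ ((i + 1) * d) = a ^ (i + r) * a ^ ((i + 1) * d) := by rw [← hr]
      _ = a ^ r * a ^ (i + (i + 1) * d) := by rw [← pow_add, ← pow_add]; congr 1; omega
      _ = a ^ ((i + 1) * d) := by rw [h4, ← pow_add, hr]; congr 1; omega
  obtain ⟨r, rfl⟩ : ∃ r, m = r + 1 := ⟨m - 1, by omega⟩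
  set e := a ^ (r + 1) with hedef
  -- a + (1 - e) b is a unit
  refine ⟨1 - e, ?_⟩
  have hz : IsUnit (a + (1 - e) * b) := by
    by_contra hz
    obtain ⟨I, hI, hzI⟩ := exists_max_ideal_of_mem_nonunits (mem_nonunits_iff.mpr hz)
    have hp := hI.isPrime
    have hone : (1 : P) ∉ I := fun h1 => hI.ne_top ((Ideal.eq_top_iff_one I).mpr h1)
    have haI : a ∉ I := by
      intro ha
      have heI : e ∈ I := by
        rw [hedef, pow_succ]
        exact I.mul_mem_left _ ha
      have h1 : (1 - e) * b ∈ I := by
        have := I.sub_mem hzI ha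
        rwa [add_sub_cancel_left] at this
      rcases hp.mem_or_mem h1 with h2 | h2
      · apply hone
        have := I.add_mem h2 heI
        rwa [sub_add_cancel] at this
      · apply hone
        rw [← h]
        exact I.add_mem (I.mul_mem_left _ ha) h2
    have heI : e ∉ I := fun h1 => haI (hp.mem_of_pow_mem _ h1)
    have h0 : e * (1 - e) ∈ I := by
      rw [mul_sub, mul_one, he, sub_self]
      exact I.zero_mem
    have h1 : 1 - e ∈ I := (hp.mem_or_mem h0).resolve_left heI
    apply haI
    have := I.sub_mem hzI (I.mul_mem_right b h1)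
    rwa [add_sub_cancel_right] at this
  obtain ⟨u, hu⟩ := hz.exists_right_inv
  exact ⟨u, hu⟩

section gen

variable {N : ℕ} {P : Type} [CommRing P] {L : Subgroup (SpecialLinearGroup (Fin N) P)}

theorem el_mul_apply (k l : Fin N) (r : P) (M : Matrix (Fin N) (Fin N) P) (i j : Fin N) :
    (el k l r * M) i j = M i j + if i = k then r * M l j else 0 := by
  rw [Matrix.mul_apply]
  simp only [el_apply, add_mul, Finset.sum_add_distrib]
  congr 1
  · rw [← Matrix.mul_apply, one_mul]
  · by_cases h : i = k
    · simp [h]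
    · simp [h]

/-- adding multiples of the rows `≠ k` to the row `k` -/
theorem row_mem (h1 : ∀ r : P, Co L r) (k : Fin N) (c : Fin N → P) (hc : c k = 0) :
    InL L (tv (Pi.single k 1) c) := by
  classical
  have h2 : c = ∑ l, Pi.single l (c l) := by
    ext i
    simp [Finset.sum_apply, Pi.single_apply]
  have key : ∀ s : Finset (Fin N), InL L (tv (Pi.single k 1) (∑ l ∈ s, Pi.single l (c l))) := by
    intro s
    induction s using Finset.induction_on with
    | empty => rw [Finset.sum_empty, tv_zero_right]; exact InL.one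
    | insert a s ha ih =>
      by_cases hak : a = k
      · rw [Finset.sum_insert ha, hak, hc, Pi.single_zero, zero_add]; exact ih
      · rw [Finset.sum_insert ha]
        have h3 : tv (Pi.single k 1) (Pi.single a (c a) + ∑ l ∈ s, Pi.single l (c l)) =
            el k a (c a) * tv (Pi.single k 1) (∑ l ∈ s, Pi.single l (c l)) := by
          generalize (∑ l ∈ s, Pi.single l (c l) : Fin N → P) = S
          have hka : (Pi.single k (1 : P) : Fin N → P) a = 0 := Pi.single_eq_of_ne hak 1
          ext i j
          rw [el_mul_apply, tv_apply, tv_apply, tv_apply, Pi.add_apply, hka]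
          rcases eq_or_ne i k with rfl | hik
          · rw [if_pos rfl, Pi.single_eq_same]
            rcases eq_or_ne j a with rfl | hja
            · rw [Pi.single_eq_same, Matrix.one_apply_eq]; ring
            · rw [Pi.single_eq_of_ne hja, Matrix.one_apply_ne (Ne.symm hja)]; ring
          · rw [if_neg hik, Pi.single_eq_of_ne hik]; ring
        rw [h3]
        exact (h1 (c a) k a (Ne.symm hak)).mul ih
  rw [h2]
  exact key Finset.univ

/-- adding multiples of the row `k` to the other rows -/
theorem col_mem (h1 : ∀ r : P, Co L r) (k : Fin N) (c : Fin N → P) (hc : c k = 0) :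
    InL L (tv c (Pi.single k 1)) := by
  classical
  have h2 : c = ∑ l, Pi.single l (c l) := by
    ext i
    simp [Finset.sum_apply, Pi.single_apply]
  have key : ∀ s : Finset (Fin N), InL L (tv (∑ l ∈ s, Pi.single l (c l)) (Pi.single k 1)) := by
    intro s
    induction s using Finset.induction_on with
    | empty => rw [Finset.sum_empty, tv_zero_left]; exact InL.one
    | insert a s ha ih =>
      by_cases hak : a = k
      · rw [Finset.sum_insert ha, hak, hc, Pi.single_zero, zero_add]; exact ih
      · rw [Finset.sum_insert ha]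
        have hs : (∑ l ∈ s, Pi.single l (c l) : Fin N → P) k = 0 := by
          rw [Finset.sum_apply]
          refine Finset.sum_eq_zero fun l _ => ?_
          by_cases hlk : l = k
          · rw [hlk, hc]; simp
          · simp [Ne.symm hlk]
        have h3 : tv (Pi.single a (c a) + ∑ l ∈ s, Pi.single l (c l)) (Pi.single k 1) =
            el a k (c a) * tv (∑ l ∈ s, Pi.single l (c l)) (Pi.single k 1) := by
          generalize (∑ l ∈ s, Pi.single l (c l) : Fin N → P) = S at hs ⊢
          ext i j
          rw [el_mul_apply, tv_apply, tv_apply, tv_apply, Pi.add_apply, hs]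
          rcases eq_or_ne i a with rfl | hia
          · rw [if_pos rfl, Pi.single_eq_same]
            rcases eq_or_ne j k with rfl | hjk
            · rw [Pi.single_eq_same, Matrix.one_apply_eq]; ring
            · rw [Pi.single_eq_of_ne hjk, Matrix.one_apply_ne (Ne.symm hjk)]; ring
          · rw [if_neg hia, Pi.single_eq_of_ne hia]; ring
        rw [h3]
        exact (h1 (c a) a k hak).mul ih
  rw [h2]
  exact key Finset.univ

theorem rowT_apply (k : Fin N) (c : Fin N → P) (M : Matrix (Fin N) (Fin N) P) (i j : Fin N) :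
    (tv (Pi.single k 1) c * M) i j = M i j + if i = k then ∑ l, c l * M l j else 0 := by
  rw [Matrix.mul_apply]
  simp only [tv_apply, add_mul, Finset.sum_add_distrib]
  congr 1
  · rw [← Matrix.mul_apply, one_mul]
  · by_cases h : i = k
    · simp [h]
    · simp [h]

theorem colT_apply (k : Fin N) (c : Fin N → P) (M : Matrix (Fin N) (Fin N) P) (i j : Fin N) :
    (tv c (Pi.single k 1) * M) i j = M i j + c i * M k j := by
  rw [Matrix.mul_apply]
  simp only [tv_apply, add_mul, Finset.sum_add_distrib]
  congr 1
  · rw [← Matrix.mul_apply, one_mul]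
  · simp [Pi.single_apply]

/-- the first `k` columns are standard -/
def Std (k : ℕ) (M : Matrix (Fin N) (Fin N) P) : Prop :=
  ∀ j : Fin N, j.1 < k → ∀ i, M i j = (1 : Matrix (Fin N) (Fin N) P) i j

theorem Std.rowT {k : ℕ} {M : Matrix (Fin N) (Fin N) P} (hM : Std k M) (p : Fin N)
    (c : Fin N → P) (hc : ∀ l : Fin N, l.1 < k → c l = 0) :
    Std k (tv (Pi.single p 1) c * M) := by
  intro j hj i
  rw [rowT_apply, hM j hj i]
  have h : ∑ l, c l * M l j = 0 := by
    refine Finset.sum_eq_zero fun l _ => ?_
    rw [hM j hj l]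
    rcases eq_or_ne l j with rfl | h
    · rw [hc l hj, zero_mul]
    · rw [Matrix.one_apply_ne h, mul_zero]
  rw [h, ite_self, add_zero]

theorem Std.colT {k : ℕ} {M : Matrix (Fin N) (Fin N) P} (hM : Std k M) (p : Fin N)
    (hp : k ≤ p.1) (c : Fin N → P) : Std k (tv c (Pi.single p 1) * M) := by
  intro j hj i
  have h : p ≠ j := by
    rintro rfl
    omega
  rw [colT_apply, hM j hj i, hM j hj p, Matrix.one_apply_ne h, mul_zero, add_zero]

theorem finish (h1 : ∀ r : P, Co L r) (k : ℕ) (hk : k < N)
    (IH : ∀ g : SpecialLinearGroup (Fin N) P, Std (k + 1) g.1 → g ∈ L)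
    (g : SpecialLinearGroup (Fin N) P) (hg : Std k g.1) (hkk : g.1 ⟨k, hk⟩ ⟨k, hk⟩ = 1) :
    g ∈ L := by
  obtain ⟨h, hh, hM⟩ := col_mem h1 ⟨k, hk⟩
    (fun i => if i = ⟨k, hk⟩ then 0 else -(g.1 i ⟨k, hk⟩)) (if_pos rfl)
  have e : (h * g).1 = tv (fun i => if i = ⟨k, hk⟩ then 0 else -(g.1 i ⟨k, hk⟩))
      (Pi.single ⟨k, hk⟩ 1) * g.1 := by
    rw [← hM]; rfl
  have h3 : h * g ∈ L := by
    refine IH _ ?_
    rw [e]
    intro j hj i
    rcases Nat.lt_succ_iff_lt_or_eq.mp hj with h4 | h4
    · exact hg.colT ⟨k, hk⟩ le_rfl _ j h4 i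
    · have hjk : j = ⟨k, hk⟩ := Fin.ext h4
      subst hjk
      rw [colT_apply, hkk, mul_one]
      by_cases hi : i = ⟨k, hk⟩
      · subst hi
        rw [if_pos rfl, add_zero, hkk, Matrix.one_apply_eq]
      · rw [if_neg hi, add_neg_cancel, Matrix.one_apply_ne hi]
  exact (L.mul_mem_cancel_left hh).mp h3

theorem inv_std {k : ℕ} (g : SpecialLinearGroup (Fin N) P) (hg : Std k g.1) :
    Std k (g⁻¹).1 := by
  intro j hj i
  have h5 : (g⁻¹).1 * g.1 = 1 := congrArg Subtype.val (inv_mul_cancel g)
  have h6 := congrFun (congrFun h5 i) j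
  rw [← h6, Matrix.mul_apply]
  have h7 : ∀ l, (g⁻¹).1 i l * g.1 l j = (g⁻¹).1 i l * (1 : Matrix (Fin N) (Fin N) P) l j :=
    fun l => by rw [hg j hj l]
  rw [Finset.sum_congr rfl fun l _ => h7 l, ← Matrix.mul_apply, mul_one]

theorem all_mem [Finite P] (h1 : ∀ r : P, Co L r) : ∀ d k : ℕ, k + d = N →
    ∀ g : SpecialLinearGroup (Fin N) P, Std k g.1 → g ∈ L := by
  intro d
  induction d with
  | zero =>
    intro k hk g hg
    have : g = 1 := by
      apply Subtype.ext
      ext i j
      exact hg j (by omega) i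
    rw [this]
    exact L.one_mem
  | succ d ih =>
    intro k hk g hg
    have hkN : k < N := by omega
    have IH : ∀ g : SpecialLinearGroup (Fin N) P, Std (k + 1) g.1 → g ∈ L :=
      fun g => ih (k + 1) (by omega) g
    set kk : Fin N := ⟨k, hkN⟩ with hkk
    rcases Nat.eq_zero_or_pos d with hd | hd
    · -- last column
      refine finish h1 k hkN IH g hg ?_
      have h2 : g.1.BlockTriangular id := by
        intro i j hij
        have hij' : j < i := hij
        rw [hg j (by have := i.2; have : j.1 < i.1 := hij'; omega) i,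
          Matrix.one_apply_ne (ne_of_gt hij')]
      have h3 := Matrix.det_of_isUpperTriangular h2
      rw [g.2] at h3
      rw [Finset.prod_eq_single kk] at h3
      · exact h3.symm
      · intro b _ hb
        have : b.1 ≠ k := fun h => hb (Fin.ext h)
        rw [hg b (by have := b.2; omega) b, Matrix.one_apply_eq]
      · intro h; exact absurd (Finset.mem_univ _) h
    · have hk1N : k + 1 < N := by omega
      set k1 : Fin N := ⟨k + 1, hk1N⟩ with hk1
      have hne : kk ≠ k1 := by
        intro h
        have := congrArg Fin.val h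
        simp [hkk, hk1] at this
      -- unimodularity
      have h5 : (g⁻¹).1 * g.1 = 1 := congrArg Subtype.val (inv_mul_cancel g)
      have h6 : ∑ l, (g⁻¹).1 kk l * g.1 l kk = 1 := by
        rw [← Matrix.mul_apply, h5, Matrix.one_apply_eq]
      rw [← Finset.add_sum_erase _ _ (Finset.mem_univ kk)] at h6
      obtain ⟨t, u, htu⟩ := stable _ _ _ h6
      -- first step
      let c : Fin N → P := fun l => if l = kk then 0 else t * (g⁻¹).1 kk l
      have hc0 : c kk = 0 := if_pos rfl
      have hc1 : ∀ l : Fin N, l.1 < k → c l = 0 := by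
        intro l hl
        have hlk : l ≠ kk := by
          rintro rfl
          simp [hkk] at hl
        rw [show c l = t * (g⁻¹).1 kk l from if_neg hlk, inv_std g hg l hl kk,
          Matrix.one_apply_ne hlk.symm, mul_zero]
      obtain ⟨a1, ha1, hM1⟩ := row_mem h1 kk c hc0
      set z : P := g.1 kk kk + ∑ l, c l * g.1 l kk with hz
      have hzu : z * u = 1 := by
        rw [← htu, hz]
        congr 2
        rw [Finset.mul_sum, ← Finset.add_sum_erase _ _ (Finset.mem_univ kk), hc0, zero_mul,
          zero_add]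
        refine Finset.sum_congr rfl fun l hl => ?_
        rw [show c l = t * (g⁻¹).1 kk l from if_neg (Finset.ne_of_mem_erase hl), mul_assoc]
      have e1 : (a1 * g).1 = tv (Pi.single kk 1) c * g.1 := by rw [← hM1]; rfl
      have s1 : Std k (a1 * g).1 := by rw [e1]; exact hg.rowT kk c hc1
      have z1 : (a1 * g).1 kk kk = z := by rw [e1, rowT_apply, if_pos rfl]
      have y1 : (a1 * g).1 k1 kk = g.1 k1 kk := by
        rw [e1, rowT_apply, if_neg hne.symm, add_zero]
      -- second step
      let c2 : Fin N → P := Pi.single k1 (u * (1 - g.1 k1 kk))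
      have hc2 : c2 kk = 0 := Pi.single_eq_of_ne hne _
      obtain ⟨a2, ha2, hM2⟩ := col_mem h1 kk c2 hc2
      have e2 : (a2 * (a1 * g)).1 = tv c2 (Pi.single kk 1) * (a1 * g).1 := by rw [← hM2]; rfl
      have s2 : Std k (a2 * (a1 * g)).1 := by rw [e2]; exact s1.colT kk le_rfl c2
      have z2 : (a2 * (a1 * g)).1 kk kk = z := by
        rw [e2, colT_apply, hc2, zero_mul, add_zero, z1]
      have y2 : (a2 * (a1 * g)).1 k1 kk = 1 := by
        rw [e2, colT_apply, y1, z1, show c2 k1 = u * (1 - g.1 k1 kk) from Pi.single_eq_same _ _]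
        linear_combination (1 - g.1 k1 kk) * hzu
      -- third step
      let c3 : Fin N → P := Pi.single k1 (1 - z)
      have hc3 : c3 kk = 0 := Pi.single_eq_of_ne hne _
      obtain ⟨a3, ha3, hM3⟩ := row_mem h1 kk c3 hc3
      have e3 : (a3 * (a2 * (a1 * g))).1 = tv (Pi.single kk 1) c3 * (a2 * (a1 * g)).1 := by
        rw [← hM3]; rfl
      have s3 : Std k (a3 * (a2 * (a1 * g))).1 := by
        rw [e3]
        refine s2.rowT kk c3 fun l hl => Pi.single_eq_of_ne ?_ _
        rintro rfl
        simp [hk1] at hl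
      have z3 : (a3 * (a2 * (a1 * g))).1 kk kk = 1 := by
        rw [e3, rowT_apply, if_pos rfl, z2, Finset.sum_eq_single k1]
        · rw [y2, show c3 k1 = 1 - z from Pi.single_eq_same _ _]; ring
        · intro b _ hb
          rw [show c3 b = 0 from Pi.single_eq_of_ne hb _, zero_mul]
        · intro h; exact absurd (Finset.mem_univ _) h
      have h9 := finish h1 k hkN IH _ s3 z3
      rwa [L.mul_mem_cancel_left ha3, L.mul_mem_cancel_left ha2,
        L.mul_mem_cancel_left ha1] at h9

/-- for a finite commutative ring the elementary transvections generate `SL_N` -/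
theorem mem_of_co [Finite P] (h1 : ∀ r : P, Co L r) (g : SpecialLinearGroup (Fin N) P) :
    g ∈ L :=
  all_mem h1 N 0 (by omega) g fun j hj => absurd hj (Nat.not_lt_zero _)

end gen

end Vale.Agent.P183.H528
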