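import Vale.Agent.P183.R2.H528.Ent
import Vale.Agent.P183.R2.H528.Gen
import Vale.Agent.P183.R2.H528.Defs

/-!
The subgroups between `SL_N(S)` and `SL_N(R)` are the groups `SL_N(P)`, `S ≤ P ≤ R`.
-/

namespace Vale.Agent.P183.H528

open Matrix

section slOf

variable {N : ℕ} {R : Type} [CommRing R]

theorem lift_det (P : Subring R) (M : Matrix (Fin N) (Fin N) R) (h : ∀ i j, M i j ∈ P) :
    ((lift P M h).det : R) = M.det := by
  have h1 := RingHom.map_det P.subtype (lift P M h)
  rw [lift_map] at h1
  exact h1

theorem mem_slOf {P : Subring R} {g : SpecialLinearGroup (Fin N) R} :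
    g ∈ slOf P ↔ ∀ i j, g.1 i j ∈ P := Iff.rfl

theorem el_det {k l : Fin N} (h : k ≠ l) (r : R) : (el k l r).det = 1 := by
  have h1 : el k l r = Matrix.transvection k l r := by
    ext i j
    rw [el_apply, Matrix.transvection, Matrix.add_apply, Matrix.single_apply]
    congr 1
    simp only [eq_comm]
  rw [h1, Matrix.det_transvection_of_ne k l h]

/-- the elementary transvection as an element of the group -/
def sel {k l : Fin N} (h : k ≠ l) (r : R) : SpecialLinearGroup (Fin N) R :=
  ⟨el k l r, el_det h r⟩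

theorem sel_mem_iff {k l : Fin N} (h : k ≠ l) (r : R) (P : Subring R) :
    sel h r ∈ slOf P ↔ r ∈ P := by
  constructor
  · intro h1
    have h2 := h1 k l
    have h3 : (sel h r).1 = el k l r := rfl
    rw [h3, el_apply, if_pos ⟨rfl, rfl⟩, Matrix.one_apply_ne h, zero_add] at h2
    exact h2
  · intro h1 i j
    have h3 : (sel h r).1 = el k l r := rfl
    rw [h3, el_apply]
    refine P.add_mem ?_ ?_
    · rw [Matrix.one_apply]
      split_ifs
      · exact P.one_mem
      · exact P.zero_mem
    · split_ifs
      · exact h1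
      · exact P.zero_mem

theorem inL_iff {L : Subgroup (SpecialLinearGroup (Fin N) R)} {k l : Fin N} (h : k ≠ l) (r : R) :
    InL L (el k l r) ↔ sel h r ∈ L := by
  constructor
  · rintro ⟨g, hg, hM⟩
    have : sel h r = g := Subtype.ext hM.symm
    rw [this]
    exact hg
  · intro h1
    exact ⟨_, h1, rfl⟩

theorem slOf_le_iff (hN : 2 ≤ N) {P P' : Subring R} :
    (slOf P : Subgroup (SpecialLinearGroup (Fin N) R)) ≤ slOf P' ↔ P ≤ P' := by
  constructor
  · intro h r hr
    have hne : (⟨0, by omega⟩ : Fin N) ≠ ⟨1, by omega⟩ := by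
      intro h
      have := congrArg Fin.val h
      simp at this
    exact (sel_mem_iff hne r P').mp (h ((sel_mem_iff hne r P).mpr hr))
  · intro h g hg i j
    exact h (hg i j)

/-- if all coefficients of `P` are coefficients of `L` then `SL_N(P) ≤ L` -/
theorem slOf_le [Finite R] {P : Subring R} {L : Subgroup (SpecialLinearGroup (Fin N) R)}
    (h : ∀ r ∈ P, Co L r) : slOf P ≤ L := by
  intro g hg
  let g0 : SpecialLinearGroup (Fin N) P := ⟨lift P g.1 hg,
    Subtype.ext ((lift_det P g.1 hg).trans g.2)⟩
  let L' : Subgroup (SpecialLinearGroup (Fin N) P) :=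
    L.comap (SpecialLinearGroup.map P.subtype)
  have h1 : ∀ r : P, Co L' r := by
    intro r k l hkl
    rw [inL_iff hkl]
    change SpecialLinearGroup.map P.subtype (sel hkl r) ∈ L
    have h2 : SpecialLinearGroup.map P.subtype (sel hkl r) = sel hkl (r : R) := by
      apply Subtype.ext
      ext i j
      have e1 : (SpecialLinearGroup.map P.subtype (sel hkl r)).1 i j =
        ((el k l r i j : P) : R) := rfl
      have e2 : (sel hkl (r : R)).1 i j = el k l (r : R) i j := rfl
      rw [e1, e2, el_apply, el_apply, Matrix.one_apply, Matrix.one_apply]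
      split_ifs <;> simp
    rw [h2, ← inL_iff]
    exact h r r.2 k l hkl
  have h3 : g0 ∈ L' := mem_of_co h1 g0
  have h4 : SpecialLinearGroup.map P.subtype g0 = g := by
    apply Subtype.ext
    ext i j
    rfl
  have h5 : SpecialLinearGroup.map P.subtype g0 ∈ L := h3
  rwa [h4] at h5

/-- MAIN THEOREM: every subgroup between is an `SL_N(P)` -/
theorem between [Finite R] (hN : N = (Nat.card (Set R)).factorial + 1) (S : Subring R)
    (L : Subgroup (SpecialLinearGroup (Fin N) R)) (hS : slOf S ≤ L) :
    ∃ P : Subring R, S ≤ P ∧ slOf P = L ∧ ∀ r, r ∈ P ↔ Co L r := by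
  have hc : Fintype.card (Fin N) = (Nat.card (Set R)).factorial + 1 := by
    rw [Fintype.card_fin, hN]
  have hcard := card_ok hc
  have hSco : ∀ s ∈ S, Co L s := fun s hs k l hkl =>
    (inL_iff hkl s).mpr (hS ((sel_mem_iff hkl s S).mpr hs))
  have h1 : Co L (1 : R) := hSco 1 S.one_mem
  refine ⟨coRing L (third hcard) h1, fun s hs => hSco s hs, ?_, fun r => Iff.rfl⟩
  apply le_antisymm
  · exact slOf_le fun r hr => hr
  · intro g hg i j
    exact entries_mem hc h1 hg i j

end slOf

end Vale.Agent.P183.H528
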