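import Mathlib
import Vale.Agent.P183.Defs

/-!
The sets of pairs of the statement. The set of the form `{x : α × β // …}` carries the componentwise
order; `βᵒᵈ` is `β` with the reversed order.
-/

namespace Vale.Agent.P183.H528

/-- The set of all pairs `(B, P)` of a subgroup `B ≥ A₀` of `A` and a subring `P ≥ S` of `R` which
is mapped into itself by all automorphisms `φ b`, `b ∈ B`; the order is `B ≤ B'` and `P ≤ P'`. -/
abbrev PairSub {R : Type} [CommRing R] (S : Subring R) {A : Type} [Group A] (A₀ : Subgroup A)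
    (φ : A →* (R ≃+* R)) : Type :=
  {x : Subgroup A × Subring R // A₀ ≤ x.1 ∧ S ≤ x.2 ∧ ∀ a ∈ x.1, ∀ r ∈ x.2, φ a r ∈ x.2}

/-- The set of all pairs `(B, θ)` of a subgroup `B ≥ A₀` of `A` and an equivalence relation `θ` on
`X` which is invariant under `B`; the order is `B ≤ B'` and `θ ≥ θ'`. -/
abbrev PairEq (X : Type) {A : Type} [Group A] [MulAction A X] (A₀ : Subgroup A) : Type :=
  {x : Subgroup A × (Setoid X)ᵒᵈ // A₀ ≤ x.1 ∧
    ∀ a ∈ x.1, ∀ u v, (OrderDual.ofDual x.2) u v → (OrderDual.ofDual x.2) (a • u) (a • v)}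

/-- All pairs `(π, x)` of a congruence `π` of `A` and a family `x` of elements of `Λ`, indexed by
the carrier of `A`, which is constant on the classes of `π`. -/
abbrev ConstPairs (A : FiniteAlgebra) (Λ : Type) [LE Λ] : Type :=
  {p : A.Con × (A.carrier → Λ) // ∀ u v, p.1.1 u v → p.2 u = p.2 v}

/-- All pairs `(B, K)` of a subgroup `B ≥ A₀` of `A` and a subgroup `K ≥ H` of `G` which is mapped
into itself by the automorphisms `φ b`, `b ∈ B`. -/
abbrev GroupPairs {G A : Type} [Group G] [Group A] (φ : A →* MulAut G) (H : Subgroup G)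
    (A₀ : Subgroup A) : Type :=
  {p : Subgroup A × Subgroup G // A₀ ≤ p.1 ∧ H ≤ p.2 ∧ ∀ a ∈ p.1, ∀ g ∈ p.2, φ a g ∈ p.2}

/-- The set of all pairs `(B, P)` of a subgroup `B ≥ A₀` of `A` and a subring `P ≥ S` of `R` which
is mapped into itself by all automorphisms `φ b`, `b ∈ B`; the order is `B ≤ B'` and `P ≥ P'`. -/
abbrev PairSubOp {R : Type} [CommRing R] (S : Subring R) {A : Type} [Group A] (A₀ : Subgroup A)
    (φ : A →* (R ≃+* R)) : Type :=
  {x : Subgroup A × (Subring R)ᵒᵈ // A₀ ≤ x.1 ∧ S ≤ OrderDual.ofDual x.2 ∧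
    ∀ a ∈ x.1, ∀ r ∈ OrderDual.ofDual x.2, φ a r ∈ OrderDual.ofDual x.2}

/-- The set of all pairs `(B, θ)` of a subgroup `B ≥ A₀` of `A` and an equivalence relation `θ` on
`X` which is invariant under `B`; the order is `B ≤ B'` and `θ ≤ θ'`. -/
abbrev PairEqUp (X : Type) {A : Type} [Group A] [MulAction A X] (A₀ : Subgroup A) : Type :=
  {x : Subgroup A × Setoid X // A₀ ≤ x.1 ∧
    ∀ a ∈ x.1, ∀ u v, x.2 u v → x.2 (a • u) (a • v)}

/-- The set of all pairs `(B, K)` of a subgroup `B ≥ A₀` of `A` and a subgroup `K ≥ H` of `G` which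
is mapped into itself by all automorphisms `φ b`, `b ∈ B`; the order is `B ≤ B'` and `K ≥ K'`. -/
abbrev GroupPairsOp {G A : Type} [Group G] [Group A] (φ : A →* MulAut G) (H : Subgroup G)
    (A₀ : Subgroup A) : Type :=
  {p : Subgroup A × (Subgroup G)ᵒᵈ // A₀ ≤ p.1 ∧ H ≤ OrderDual.ofDual p.2 ∧
    ∀ a ∈ p.1, ∀ g ∈ OrderDual.ofDual p.2, φ a g ∈ OrderDual.ofDual p.2}

end Vale.Agent.P183.H528
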