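import Vale.Agent.P183.R2.H528.Semi
import Vale.Agent.P183.R2.H528.PairDefs

/-!
Pairs `(B, P)`: `B` a group of automorphisms, `P` an intermediate ring invariant under `B`.
-/

namespace Vale.Agent.P183.H528

open Matrix

section pair

variable {n : Type} [DecidableEq n] [Fintype n] {R : Type} [CommRing R]
  {L : Subgroup (SpecialLinearGroup n R)}

theorem co_entries_ne' [Finite R] (hcard : Nat.card R + 2 ≤ Fintype.card n) (h1 : Co L (1 : R))
    {g : SpecialLinearGroup n R}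
    (hg : ∀ i j : n, i ≠ j → InL L (g.1 * el i j 1 * (g⁻¹).1)) (l i j m : n) (hij : i ≠ j) :
    Co L (g.1 l i * (g⁻¹).1 j m) := by
  have h2 : g.1 * (g⁻¹).1 = 1 := congrArg Subtype.val (mul_inv_cancel g)
  have h3 : InL L (g.1 * tv (Pi.single i 1) (Pi.single j 1) * (g⁻¹).1) := hg i j hij
  rw [mul_tv_mul _ _ h2] at h3
  have h4 : ((Pi.single j (1 : R) : n → R) ᵥ* (g⁻¹).1) ⬝ᵥ (g.1 *ᵥ (Pi.single i (1 : R))) = 0 := by
    rw [← dotProduct_mulVec, mulVec_mulVec]
    have h5 : (g⁻¹).1 * g.1 = 1 := congrArg Subtype.val (inv_mul_cancel g)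
    rw [h5, one_mulVec]
    simp [hij.symm]
  have h6 := co_of_tv hcard h1 h4 h3 l m
  simpa using h6

theorem co_entries' [Finite R] (hcard : Nat.card R + 2 ≤ Fintype.card n) (h1 : Co L (1 : R))
    {g : SpecialLinearGroup n R}
    (hg : ∀ i j : n, i ≠ j → InL L (g.1 * el i j 1 * (g⁻¹).1)) (l i j m : n) :
    Co L (g.1 l i * (g⁻¹).1 j m) := by
  by_cases hij : i = j
  · obtain ⟨j', hj', -⟩ := third hcard i j
    have h2 : g.1 l i * (g⁻¹).1 j m =
        ∑ m', (g.1 l i * (g⁻¹).1 j' m') * (g.1 m' j' * (g⁻¹).1 j m) := by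
      have h3 := inv_mul_entries g j' j'
      rw [Matrix.one_apply_eq] at h3
      calc g.1 l i * (g⁻¹).1 j m
          = (g.1 l i * (g⁻¹).1 j m) * ∑ m', (g⁻¹).1 j' m' * g.1 m' j' := by rw [h3, mul_one]
        _ = _ := by
          rw [Finset.mul_sum]
          exact Finset.sum_congr rfl fun _ _ => by ring
    rw [h2]
    have h4 : ∀ m' ∈ (Finset.univ : Finset n),
        (g.1 l i * (g⁻¹).1 j' m') * (g.1 m' j' * (g⁻¹).1 j m) ∈ coRing L (third hcard) h1 :=
      fun m' _ => mul_mem (co_entries_ne' hcard h1 hg l i j' m' hj'.symm)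
        (co_entries_ne' hcard h1 hg m' j' j m (by rw [← hij]; exact hj'))
    exact sum_mem h4
  · exact co_entries_ne' hcard h1 hg l i j m hij

/-- if `g` conjugates all `1 + E_ij` into `L` then its entries lie in the ring of `L` -/
theorem entries_mem' [Finite R] (hc : Fintype.card n = (Nat.card (Set R)).factorial + 1)
    (h1 : Co L (1 : R)) {g : SpecialLinearGroup n R}
    (hg : ∀ i j : n, i ≠ j → InL L (g.1 * el i j 1 * (g⁻¹).1)) (i j : n) :
    Co L (g.1 i j) := by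
  have hcard := card_ok hc
  set P : Subring R := coRing L (third hcard) h1 with hP
  let C : Submodule P R := Submodule.span P (Set.range fun x : n × n => g.1 x.1 x.2)
  let C' : Submodule P R := Submodule.span P (Set.range fun x : n × n => (g⁻¹).1 x.1 x.2)
  have mC : ∀ i j, g.1 i j ∈ C := fun i j => Submodule.subset_span ⟨(i, j), rfl⟩
  have mC' : ∀ i j, (g⁻¹).1 i j ∈ C' := fun i j => Submodule.subset_span ⟨(i, j), rfl⟩
  have h2 : C * C' ≤ 1 := by
    rw [Submodule.span_mul_span, Submodule.span_le]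
    rintro _ ⟨_, ⟨x, rfl⟩, _, ⟨y, rfl⟩, rfl⟩
    exact Submodule.mem_one.mpr ⟨⟨_, co_entries' hcard h1 hg x.1 x.2 y.1 y.2⟩, rfl⟩
  have h3 : (1 : Submodule P R) ≤ C * C' := by
    rw [Submodule.one_le]
    have h4 := mul_inv_entries g i i
    rw [Matrix.one_apply_eq] at h4
    rw [← h4]
    exact sum_mem fun m _ => Submodule.mul_mem_mul (mC _ _) (mC' _ _)
  have h5 : C * C' = 1 := le_antisymm h2 h3
  have d1 : (1 : Submodule P R) ≤ C ^ Fintype.card n := by
    rw [Submodule.one_le]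
    have := det_mem_pow C g.1 mC
    rwa [g.2] at this
  have d2 : (1 : Submodule P R) ≤ C' ^ Fintype.card n := by
    rw [Submodule.one_le]
    have := det_mem_pow C' (g⁻¹).1 mC'
    rwa [(g⁻¹).2] at this
  have h6 : C ^ Fintype.card n = 1 := by
    refine le_antisymm ?_ d1
    calc C ^ Fintype.card n = C ^ Fintype.card n * 1 := (mul_one _).symm
      _ ≤ C ^ Fintype.card n * C' ^ Fintype.card n := mul_le_mul' le_rfl d2
      _ = 1 := by rw [← mul_pow, h5, one_pow]
  have h7 : C = 1 := eq_one_of_pow C C' h5 (by rw [← hc]; exact h6)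
  have h8 : g.1 i j ∈ (1 : Submodule P R) := by rw [← h7]; exact mC i j
  obtain ⟨y, hy⟩ := Submodule.mem_one.mp h8
  rw [← hy]
  exact y.2

end pair

section semidirect

variable {R : Type} [CommRing R] {N : ℕ} {A : Type} [Group A]

/-- the action of `A` on `SL_N(R)` -/
def actSL (N : ℕ) (φ : A →* (R ≃+* R)) : A →* MulAut (SpecialLinearGroup (Fin N) R) :=
  (autSL N (⊤ : Subgroup (R ≃+* R))).comp
    ((Subgroup.topEquiv.symm : (R ≃+* R) ≃* (⊤ : Subgroup (R ≃+* R))).toMonoidHom.comp φ)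

theorem actSL_apply (φ : A →* (R ≃+* R)) (a : A) (g : SpecialLinearGroup (Fin N) R) :
    actSL N φ a g = SpecialLinearGroup.map ((φ a : R ≃+* R) : R →+* R) g := rfl

theorem actSL_sel (φ : A →* (R ≃+* R)) (a : A) {k l : Fin N} (h : k ≠ l) (x : R) :
    actSL N φ a (sel h x) = sel h (φ a x) := autSL_sel ⊤ ⟨φ a, trivial⟩ h x

/-- the group of a pair -/
def pairOf (φ : A →* (R ≃+* R)) (B : Subgroup A) (P : Subring R)
    (hP : ∀ a ∈ B, ∀ r ∈ P, φ a r ∈ P) :
    Subgroup (SpecialLinearGroup (Fin N) R ⋊[actSL N φ] A) where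
  carrier := {x | x.left ∈ slOf P ∧ x.right ∈ B}
  mul_mem' := by
    intro a b ha hb
    refine ⟨?_, ?_⟩
    · rw [SemidirectProduct.mul_left]
      refine (slOf P).mul_mem ha.1 ?_
      intro i j
      exact hP a.right ha.2 _ (hb.1 i j)
    · rw [SemidirectProduct.mul_right]
      exact B.mul_mem ha.2 hb.2
  one_mem' := ⟨(slOf P).one_mem, B.one_mem⟩
  inv_mem' := by
    intro a ha
    refine ⟨?_, ?_⟩
    · rw [SemidirectProduct.inv_left]
      intro i j
      exact hP a.right⁻¹ (B.inv_mem ha.2) _ ((slOf P).inv_mem ha.1 i j)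
    · rw [SemidirectProduct.inv_right]
      exact B.inv_mem ha.2

theorem mem_pairOf {φ : A →* (R ≃+* R)} {B : Subgroup A} {P : Subring R}
    {hP : ∀ a ∈ B, ∀ r ∈ P, φ a r ∈ P} {x : SpecialLinearGroup (Fin N) R ⋊[actSL N φ] A} :
    x ∈ pairOf φ B P hP ↔ x.left ∈ slOf P ∧ x.right ∈ B := Iff.rfl

theorem pair_iso0 [Finite R] [Finite A] (S : Subring R) (A₀ : Subgroup A) (φ : A →* (R ≃+* R))
    (hS : ∀ a ∈ A₀, ∀ r ∈ S, φ a r ∈ S) :
    ∃ (G : Type) (_ : Group G) (_ : Finite G) (H : Subgroup G),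
      Nonempty (PairSub S A₀ φ ≃o Over H) := by
  let N : ℕ := (Nat.card (Set R)).factorial + 1
  have hN : 2 ≤ N := by
    have := Nat.factorial_pos (Nat.card (Set R))
    omega
  have hc : Fintype.card (Fin N) = (Nat.card (Set R)).factorial + 1 := Fintype.card_fin N
  have hG : Finite (SpecialLinearGroup (Fin N) R ⋊[actSL N φ] A) :=
    Finite.of_injective (fun x => (x.left, x.right)) fun x y h => by
      have h1 := congrArg Prod.fst h
      have h2 := congrArg Prod.snd h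
      exact SemidirectProduct.ext h1 h2
  let f : PairSub S A₀ φ → Over (pairOf (N := N) φ A₀ S hS) :=
    fun x => ⟨pairOf φ x.1.1 x.1.2 x.2.2.2, fun y hy =>
      ⟨(slOf_le_iff hN).mpr x.2.2.1 hy.1, x.2.1 hy.2⟩⟩
  have hf : ∀ x y, f x ≤ f y ↔ x ≤ y := by
    intro x y
    constructor
    · intro h
      refine ⟨fun a ha => ?_, (slOf_le_iff (N := N) hN).mp fun g hg => ?_⟩
      · have h1 : (SemidirectProduct.inr a : SpecialLinearGroup (Fin N) R ⋊[actSL N φ] A) ∈
            pairOf φ x.1.1 x.1.2 x.2.2.2 := ⟨(slOf _).one_mem, ha⟩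
        exact (h h1).2
      · have h1 : (SemidirectProduct.inl g : SpecialLinearGroup (Fin N) R ⋊[actSL N φ] A) ∈
            pairOf φ x.1.1 x.1.2 x.2.2.2 := ⟨hg, x.1.1.one_mem⟩
        exact (h h1).1
    · intro h z hz
      exact ⟨(slOf_le_iff (N := N) hN).mpr h.2 hz.1, h.1 hz.2⟩
  refine ⟨_, inferInstance, hG, pairOf φ A₀ S hS,
    ⟨RelIso.ofSurjective (OrderEmbedding.ofMapLEIff f hf) ?_⟩⟩
  rintro ⟨K, hK⟩
  let L : Subgroup (SpecialLinearGroup (Fin N) R) := K.comap SemidirectProduct.inl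
  have hL : ∀ g, g ∈ L ↔ (SemidirectProduct.inl g :
    SpecialLinearGroup (Fin N) R ⋊[actSL N φ] A) ∈ K := fun g => Iff.rfl
  have hSL : slOf S ≤ L := fun g hg => hK (show _ ∈ pairOf φ A₀ S hS from ⟨hg, A₀.one_mem⟩)
  obtain ⟨P, hSP, hPL, hP⟩ := between (N := N) rfl S L hSL
  have h1 : Co L (1 : R) := (hP 1).mp P.one_mem
  let B : Subgroup A := K.map SemidirectProduct.rightHom
  -- conjugation of `sel` by an element of `K`
  have hconj : ∀ x ∈ K, ∀ (k l : Fin N) (hkl : k ≠ l) (r : R), r ∈ P →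
      x.left * sel hkl (φ x.right r) * x.left⁻¹ ∈ L := by
    intro x hx k l hkl r hr
    rw [hP] at hr
    have h2 := (inL_iff hkl r).mp (hr k l hkl)
    rw [hL] at h2 ⊢
    have h3 := K.mul_mem (K.mul_mem hx h2) (K.inv_mem hx)
    have h4 : x * SemidirectProduct.inl (sel hkl r) * x⁻¹ =
        SemidirectProduct.inl (x.left * sel hkl (φ x.right r) * x.left⁻¹) := by
      rw [← actSL_sel φ x.right hkl r]
      apply SemidirectProduct.ext
      · simp [SemidirectProduct.mul_left, SemidirectProduct.inv_left]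
      · simp [SemidirectProduct.mul_right, SemidirectProduct.inv_right]
    rwa [h4] at h3
  have hleft : ∀ x ∈ K, x.left ∈ slOf P := by
    intro x hx i j
    rw [hP]
    refine entries_mem' hc h1 (fun k l hkl => ?_) i j
    have h2 := hconj x hx k l hkl 1 P.one_mem
    rw [map_one] at h2
    exact ⟨_, h2, rfl⟩
  have hin : ∀ g ∈ slOf P, (SemidirectProduct.inl g :
      SpecialLinearGroup (Fin N) R ⋊[actSL N φ] A) ∈ K := by
    intro g hg
    rw [← hL, ← hPL]
    exact hg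
  have hinv : ∀ a ∈ B, ∀ r ∈ P, φ a r ∈ P := by
    rintro _ ⟨x, hx, rfl⟩ r hr
    rw [hP]
    intro k l hkl
    rw [inL_iff hkl]
    have h2 := hconj x hx k l hkl r hr
    have h3 : x.left ∈ L := by rw [← hPL]; exact hleft x hx
    have h4 := L.mul_mem (L.mul_mem (L.inv_mem h3) h2) h3
    have h5 : x.left⁻¹ * (x.left * sel hkl (φ x.right r) * x.left⁻¹) * x.left =
        sel hkl (φ x.right r) := by group
    rw [h5] at h4
    exact h4
  have hA0 : A₀ ≤ B := by
    intro a ha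
    exact ⟨SemidirectProduct.inr a, hK ⟨(slOf S).one_mem, ha⟩, SemidirectProduct.rightHom_inr a⟩
  refine ⟨⟨(B, P), hA0, hSP, hinv⟩, Subtype.ext ?_⟩
  change pairOf φ B P hinv = K
  ext x
  rw [mem_pairOf]
  constructor
  · rintro ⟨hx1, y, hy, hyx⟩
    have h2 : y.right = x.right := hyx
    -- x = inl (x.left * y.left⁻¹) * y
    have h3 : x = SemidirectProduct.inl (x.left * y.left⁻¹) * y := by
      apply SemidirectProduct.ext
      · simp [SemidirectProduct.mul_left]
      · simp [SemidirectProduct.mul_right, h2]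
    rw [h3]
    exact K.mul_mem (hin _ ((slOf P).mul_mem hx1 ((slOf P).inv_mem (hleft y hy)))) hy
  · intro hx
    exact ⟨hleft x hx, x, hx, rfl⟩

/-- MAIN THEOREM on pairs: a group interval -/
theorem pair_iso [Finite R] [Finite A] (S : Subring R) (A₀ : Subgroup A)
    (φ : A →* (R ≃+* R)) :
    ∃ (G : Type) (_ : Group G) (_ : Finite G) (H : Subgroup G),
      Nonempty (PairSub S A₀ φ ≃o Over H) := by
  let S' : Subring R := sInf {P : Subring R | S ≤ P ∧ ∀ a ∈ A₀, ∀ x ∈ P, φ a x ∈ P}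
  have hS' : ∀ a ∈ A₀, ∀ x ∈ S', φ a x ∈ S' := by
    intro a ha x hx
    rw [Subring.mem_sInf] at hx ⊢
    intro P hP
    exact hP.2 a ha x (hx P hP)
  have hSS' : S ≤ S' := le_sInf fun P hP => hP.1
  have hle : ∀ (B : Subgroup A) (P : Subring R), A₀ ≤ B → (∀ a ∈ B, ∀ x ∈ P, φ a x ∈ P) →
      (S' ≤ P ↔ S ≤ P) :=
    fun B P hB hP => ⟨fun h => hSS'.trans h, fun h => sInf_le ⟨h, fun a ha => hP a (hB ha)⟩⟩
  obtain ⟨G, hG, hG', H, ⟨e⟩⟩ := pair_iso0 S' A₀ φ hS'
  let e' : PairSub S A₀ φ ≃o PairSub S' A₀ φ :=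
    { toFun := fun x => ⟨x.1, x.2.1, (hle _ _ x.2.1 x.2.2.2).mpr x.2.2.1, x.2.2.2⟩
      invFun := fun x => ⟨x.1, x.2.1, (hle _ _ x.2.1 x.2.2.2).mp x.2.2.1, x.2.2.2⟩
      left_inv := fun _ => rfl
      right_inv := fun _ => rfl
      map_rel_iff' := Iff.rfl }
  exact ⟨G, hG, hG', H, ⟨e'.trans e⟩⟩

end semidirect

end Vale.Agent.P183.H528
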