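import Vale.Agent.P183.R2.H528.Lat
import Vale.Agent.P183.Defs

/-!
The algebra on `SL_N(R) / SL_N(S)` and its congruences.
-/

namespace Vale.Agent.P183.H528

open Matrix

section unary

/-- the equivalence relations compatible with all maps `f i` -/
abbrev UCon (X I : Type) (f : I → X → X) : Type :=
  {r : Setoid X // ∀ (i : I) (x y : X), r x y → r (f i x) (f i y)}

/-- the unary algebra -/
def unAlg (X I : Type) [hX : Finite X] [hX' : Nonempty X] [hI : Finite I] (f : I → X → X) :
    FiniteAlgebra where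
  carrier := X
  index := I
  arity := fun _ => 1
  op := fun i x => f i (x 0)
  finite_carrier := hX
  nonempty_carrier := hX'
  finite_index := hI

theorem unAlg_iff (X I : Type) [Finite X] [Nonempty X] [Finite I] (f : I → X → X)
    (r : Setoid X) : (unAlg X I f).IsCongruence r ↔
      ∀ (i : I) (x y : X), r x y → r (f i x) (f i y) := by
  constructor
  · intro h i x y hxy
    exact h i (fun _ => x) (fun _ => y) fun _ => hxy
  · intro h i x y hxy
    exact h i _ _ (hxy (0 : Fin 1))

theorem representable_of_unary {X I : Type} [Finite X] [Nonempty X] [Finite I] {f : I → X → X}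
    {L : Type} [LE L] (e : L ≃o UCon X I f) : Representable L := by
  refine ⟨unAlg X I f, ⟨e.trans ?_⟩⟩
  exact
    { toFun := fun r => ⟨r.1, (unAlg_iff X I f r.1).mpr r.2⟩
      invFun := fun r => ⟨r.1, (unAlg_iff X I f r.1).mp r.2⟩
      left_inv := fun _ => rfl
      right_inv := fun _ => rfl
      map_rel_iff' := Iff.rfl }

end unary

section alg

variable {N : ℕ} {R : Type} [CommRing R]

theorem map_mem_slOf {S : Subring R} {φ : R →+* R} (h : ∀ x ∈ S, φ x ∈ S)
    {g : SpecialLinearGroup (Fin N) R} (hg : g ∈ slOf S) :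
    SpecialLinearGroup.map φ g ∈ slOf S := fun i j => h _ (hg i j)

/-- the coset space -/
abbrev Cos (N : ℕ) (R : Type) [CommRing R] (S : Subring R) : Type :=
  SpecialLinearGroup (Fin N) R ⧸ (slOf S : Subgroup (SpecialLinearGroup (Fin N) R))

/-- the operation induced by an endomorphism on the coset space -/
def actF (S : Subring R) (φ : R →+* R) (h : ∀ x ∈ S, φ x ∈ S) : Cos N R S → Cos N R S :=
  Quotient.map' (SpecialLinearGroup.map φ) fun a b hab => by
    rw [QuotientGroup.leftRel_apply] at hab ⊢
    rw [← map_inv, ← map_mul]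
    exact map_mem_slOf h hab

theorem actF_mk (S : Subring R) (φ : R →+* R) (h : ∀ x ∈ S, φ x ∈ S)
    (g : SpecialLinearGroup (Fin N) R) :
    actF S φ h (g : Cos N R S) = ((SpecialLinearGroup.map φ g : _) : Cos N R S) := rfl

/-- all operations -/
def ops (N : ℕ) (R : Type) [CommRing R] (S : Subring R) (F : Set (R →+* R))
    (h : ∀ φ ∈ F, ∀ x ∈ S, φ x ∈ S) :
    SpecialLinearGroup (Fin N) R ⊕ F → Cos N R S → Cos N R S
  | Sum.inl g => fun x => g • x
  | Sum.inr φ => actF S φ.1 (h φ.1 φ.2)

/-- the relation of a ring -/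
def rel (N : ℕ) (S P : Subring R) (hSP : S ≤ P) : Setoid (Cos N R S) :=
  Setoid.ker (Subgroup.quotientMapOfLE
    (show (slOf S : Subgroup (SpecialLinearGroup (Fin N) R)) ≤ slOf P from
      fun _ hg i j => hSP (hg i j)))

theorem rel_mk (S P : Subring R) (hSP : S ≤ P) (a b : SpecialLinearGroup (Fin N) R) :
    rel N S P hSP (a : Cos N R S) (b : Cos N R S) ↔ a⁻¹ * b ∈ slOf P := by
  rw [rel, Setoid.ker_def]
  change ((a : SpecialLinearGroup (Fin N) R ⧸ slOf P) =
    (b : SpecialLinearGroup (Fin N) R ⧸ slOf P)) ↔ _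
  rw [QuotientGroup.eq]

/-- the map from rings to congruences -/
def toCon (N : ℕ) (S : Subring R) (F : Set (R →+* R)) (h : ∀ φ ∈ F, ∀ x ∈ S, φ x ∈ S)
    (P : OpSub S F) :
    UCon (Cos N R S) (SpecialLinearGroup (Fin N) R ⊕ F) (ops N R S F h) :=
  ⟨rel N S P.1 P.2.1, by
    intro i x y hxy
    induction x using QuotientGroup.induction_on with
    | H a =>
    induction y using QuotientGroup.induction_on with
    | H b =>
    rw [rel_mk] at hxy
    cases i with
    | inl g =>
      change rel N S P.1 P.2.1 ((g * a : SpecialLinearGroup (Fin N) R) : Cos N R S)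
        ((g * b : SpecialLinearGroup (Fin N) R) : Cos N R S)
      rw [rel_mk, _root_.mul_inv_rev, mul_assoc, inv_mul_cancel_left]
      exact hxy
    | inr φ =>
      change rel N S P.1 P.2.1
        ((SpecialLinearGroup.map φ.1 a : SpecialLinearGroup (Fin N) R) : Cos N R S)
        ((SpecialLinearGroup.map φ.1 b : SpecialLinearGroup (Fin N) R) : Cos N R S)
      rw [rel_mk, ← map_inv, ← map_mul]
      exact map_mem_slOf (P.2.2 φ.1 φ.2) hxy⟩

theorem toCon_le_iff (hN : 2 ≤ N) (S : Subring R) (F : Set (R →+* R))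
    (h : ∀ φ ∈ F, ∀ x ∈ S, φ x ∈ S) (P P' : OpSub S F) :
    toCon N S F h P ≤ toCon N S F h P' ↔ P ≤ P' := by
  constructor
  · intro hle
    refine (slOf_le_iff (N := N) hN).mp fun g hg => ?_
    have h1 : rel N S P.1 P.2.1 ((1 : SpecialLinearGroup (Fin N) R) : Cos N R S)
        (g : Cos N R S) := by
      rw [rel_mk, inv_one, one_mul]
      exact hg
    have h2 : rel N S P'.1 P'.2.1 ((1 : SpecialLinearGroup (Fin N) R) : Cos N R S)
        (g : Cos N R S) := hle h1
    rwa [rel_mk, inv_one, one_mul] at h2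
  · intro hle x y hxy
    induction x using QuotientGroup.induction_on with
    | H a =>
    induction y using QuotientGroup.induction_on with
    | H b =>
    have h1 : rel N S P.1 P.2.1 (a : Cos N R S) (b : Cos N R S) := hxy
    change rel N S P'.1 P'.2.1 (a : Cos N R S) (b : Cos N R S)
    rw [rel_mk] at h1 ⊢
    exact (slOf_le_iff (N := N) hN).mpr hle h1

theorem toCon_surj [Finite R] (hN : N = (Nat.card (Set R)).factorial + 1) (S : Subring R)
    (F : Set (R →+* R)) (h : ∀ φ ∈ F, ∀ x ∈ S, φ x ∈ S) :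
    Function.Surjective (toCon N S F h) := by
  rintro ⟨r, hr⟩
  have hg : ∀ (g a b : SpecialLinearGroup (Fin N) R), r (a : Cos N R S) (b : Cos N R S) →
      r ((g * a : SpecialLinearGroup (Fin N) R) : Cos N R S)
        ((g * b : SpecialLinearGroup (Fin N) R) : Cos N R S) :=
    fun g a b hab => hr (Sum.inl g) _ _ hab
  have hf : ∀ (φ : R →+* R) (hφ : φ ∈ F) (a b : SpecialLinearGroup (Fin N) R),
      r (a : Cos N R S) (b : Cos N R S) →
      r ((SpecialLinearGroup.map φ a : SpecialLinearGroup (Fin N) R) : Cos N R S)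
        ((SpecialLinearGroup.map φ b : SpecialLinearGroup (Fin N) R) : Cos N R S) :=
    fun φ hφ a b hab => hr (Sum.inr ⟨φ, hφ⟩) _ _ hab
  let K : Subgroup (SpecialLinearGroup (Fin N) R) :=
    { carrier := {g | r ((1 : SpecialLinearGroup (Fin N) R) : Cos N R S) (g : Cos N R S)}
      one_mem' := r.refl _
      mul_mem' := by
        intro a b ha hb
        have h1 := hg a 1 b hb
        rw [mul_one] at h1
        exact r.trans ha h1
      inv_mem' := by
        intro a ha
        have h1 := hg a⁻¹ 1 a ha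
        rw [mul_one, inv_mul_cancel] at h1
        exact r.symm h1 }
  have hK : ∀ g, g ∈ K ↔ r ((1 : SpecialLinearGroup (Fin N) R) : Cos N R S) (g : Cos N R S) :=
    fun g => Iff.rfl
  have hSK : slOf S ≤ K := by
    intro g hgS
    rw [hK]
    have : ((1 : SpecialLinearGroup (Fin N) R) : Cos N R S) = (g : Cos N R S) := by
      rw [QuotientGroup.eq, inv_one, one_mul]
      exact hgS
    rw [this]
  obtain ⟨P, hSP, hPK, hP⟩ := between hN S K hSK
  have hF : ∀ φ ∈ F, ∀ x ∈ P, φ x ∈ P := by
    intro φ hφ x hx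
    rw [hP] at hx ⊢
    intro k l hkl
    have h1 := (inL_iff hkl x).mp (hx k l hkl)
    rw [inL_iff hkl]
    rw [hK] at h1 ⊢
    have h2 := hf φ hφ _ _ h1
    rw [map_one] at h2
    have h3 : SpecialLinearGroup.map φ (sel hkl x) = sel hkl (φ x) := by
      apply Subtype.ext
      ext i j
      have e1 : (SpecialLinearGroup.map φ (sel hkl x)).1 i j = φ (el k l x i j) := rfl
      have e2 : (sel hkl (φ x)).1 i j = el k l (φ x) i j := rfl
      rw [e1, e2, el_apply, el_apply, Matrix.one_apply]
      split_ifs <;> simp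
    rwa [h3] at h2
  refine ⟨⟨P, hSP, hF⟩, ?_⟩
  apply Subtype.ext
  change rel N S P hSP = r
  ext x y
  induction x using QuotientGroup.induction_on with
  | H a =>
  induction y using QuotientGroup.induction_on with
  | H b =>
  rw [rel_mk, hPK, hK]
  constructor
  · intro h1
    have h2 := hg a _ _ h1
    rwa [mul_one, mul_inv_cancel_left] at h2
  · intro h1
    have h2 := hg a⁻¹ _ _ h1
    rwa [inv_mul_cancel] at h2

/-- the lattice of closed subrings is a congruence lattice -/
theorem opSub_iso [Finite R] (S : Subring R)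
    (F : Set (R →+* R)) (h : ∀ φ ∈ F, ∀ x ∈ S, φ x ∈ S) : Representable (OpSub S F) := by
  let N : ℕ := (Nat.card (Set R)).factorial + 1
  have hN : 2 ≤ N := by
    have := Nat.factorial_pos (Nat.card (Set R))
    omega
  have hF : Finite F := by
    have : Finite (R →+* R) := Finite.of_injective (fun f : R →+* R => (f : R → R))
      DFunLike.coe_injective
    exact inferInstance
  let e : OpSub S F ↪o UCon (Cos N R S) (SpecialLinearGroup (Fin N) R ⊕ F) (ops N R S F h) :=
    OrderEmbedding.ofMapLEIff (toCon N S F h) (toCon_le_iff hN S F h)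
  exact representable_of_unary (RelIso.ofSurjective e (toCon_surj rfl S F h))

/-- the lattice of intermediate rings is an interval in a subgroup lattice -/
theorem interval_iso [Finite R] (S : Subring R) :
    ∃ e : Mid S ≃o Over (slOf (N := (Nat.card (Set R)).factorial + 1) S),
      ∀ P, (e P).1 = slOf P.1 := by
  let N : ℕ := (Nat.card (Set R)).factorial + 1
  have hN : 2 ≤ N := by
    have := Nat.factorial_pos (Nat.card (Set R))
    omega
  let f : Mid S → Over (slOf (N := N) S) := fun P => ⟨slOf P.1, (slOf_le_iff hN).mpr P.2⟩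
  have hf : ∀ P P', f P ≤ f P' ↔ P ≤ P' := fun P P' => slOf_le_iff hN
  refine ⟨RelIso.ofSurjective (OrderEmbedding.ofMapLEIff f hf) ?_, fun P => rfl⟩
  rintro ⟨K, hK⟩
  obtain ⟨P, hSP, hPK, -⟩ := between (N := N) rfl S K hK
  exact ⟨⟨P, hSP⟩, Subtype.ext hPK⟩

end alg

end Vale.Agent.P183.H528
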