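import Vale.Agent.P183.R2.H528.Trv

/-!
The ring of a subgroup between `SL_n(S)` and `SL_n(R)`.
-/

namespace Vale.Agent.P183.H528

open Matrix

variable {n : Type} [DecidableEq n] [Fintype n] {R : Type} [CommRing R]

/-- `r` is an elementary coefficient of `L` -/
def Co (L : Subgroup (SpecialLinearGroup n R)) (r : R) : Prop :=
  ∀ k l : n, k ≠ l → InL L (el k l r)

variable {L : Subgroup (SpecialLinearGroup n R)}

theorem Co.zero : Co L (0 : R) := fun k l _ => by rw [el_zero]; exact InL.one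

theorem Co.add {r s : R} (hr : Co L r) (hs : Co L s) : Co L (r + s) := fun k l h => by
  rw [el_add k l h]
  exact (hr k l h).mul (hs k l h)

theorem Co.neg {r : R} (hr : Co L r) : Co L (-r) := fun k l h => by
  refine (hr k l h).inv ?_
  rw [← el_add k l h, add_neg_cancel, el_zero]

theorem el_comm {k m l : n} (hkm : k ≠ m) (hml : m ≠ l) (hkl : k ≠ l) (r s : R) :
    el k m r * el m l s * el k m (-r) * el m l (-s) = el k l (r * s) := by
  have h1 : el m l (-s) = tv (Pi.single m 1) (-(Pi.single l s)) := by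
    rw [el_eq, Pi.single_neg]
  have h2 : el k m (-r) = tv (Pi.single k 1) (-(Pi.single m r)) := by
    rw [el_eq, Pi.single_neg]
  have h3 : (Pi.single m r : n → R) ⬝ᵥ (Pi.single k 1) = 0 := by simp [hkm.symm]
  have h4 : (Pi.single l s : n → R) ⬝ᵥ (Pi.single k 1) = 0 := by simp [hkl.symm]
  have h5 : (Pi.single l s : n → R) ⬝ᵥ (Pi.single m 1) = 0 := by simp [hml.symm]
  rw [h1, h2, el_eq k m, el_eq m l, tv_conj _ _ _ _ h3, h4, zero_smul, sub_zero,
    tv_mul_left _ _ _ h5, add_sub_cancel_left, el_eq]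
  ext i j
  simp only [tv_apply, Pi.single_apply, Pi.smul_apply, dotProduct_single_one, smul_eq_mul]
  split_ifs <;> simp

/-- one coefficient anywhere is a coefficient everywhere -/
theorem Co.of_one (h1 : Co L (1 : R)) (hn : ∀ k l : n, ∃ m : n, m ≠ k ∧ m ≠ l) {r : R} {k l : n}
    (hkl : k ≠ l) (hr : InL L (el k l r)) : Co L r := by
  -- same row
  have row : ∀ {k l : n}, k ≠ l → InL L (el k l r) → ∀ m, k ≠ m → InL L (el k m r) := by
    intro k l hkl hr m hkm
    by_cases hlm : l = m
    · rw [← hlm]; exact hr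
    · have h := ((hr.mul (h1 l m hlm)).mul (M' := el k l (-r)) (hr.inv (by
        rw [← el_add k l hkl, add_neg_cancel, el_zero]))).mul (h1.neg l m hlm)
      rwa [el_comm hkl hlm hkm, mul_one] at h
  have col : ∀ {k l : n}, k ≠ l → InL L (el k l r) → ∀ m, m ≠ l → InL L (el m l r) := by
    intro k l hkl hr m hml
    by_cases hkm : m = k
    · rw [hkm]; exact hr
    · have h := (((h1 m k hkm).mul hr).mul (h1.neg m k hkm)).mul (M' := el k l (-r)) (hr.inv (by
        rw [← el_add k l hkl, add_neg_cancel, el_zero]))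
      rwa [el_comm hkm hkl hml, one_mul] at h
  intro i j hij
  by_cases hkj : k = j
  · -- use a third index
    obtain ⟨m, hmk, hmi⟩ := hn k i
    have a := row hkl hr m hmk.symm
    have b := col hmk.symm a i hmi.symm
    exact row hmi.symm b j hij
  · exact col hkj (row hkl hr j hkj) i hij

theorem Co.mul (hn : ∀ k l : n, ∃ m : n, m ≠ k ∧ m ≠ l) {r s : R} (hr : Co L r) (hs : Co L s) :
    Co L (r * s) := by
  intro k l hkl
  obtain ⟨m, hmk, hml⟩ := hn k l
  have h := (((hr k m hmk.symm).mul (hs m l hml)).mul (hr.neg k m hmk.symm)).mul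
    (hs.neg m l hml)
  rwa [el_comm hmk.symm hml hkl] at h

/-- the ring of coefficients -/
def coRing (L : Subgroup (SpecialLinearGroup n R)) (hn : ∀ k l : n, ∃ m : n, m ≠ k ∧ m ≠ l)
    (h1 : Co L (1 : R)) : Subring R where
  carrier := {r | Co L r}
  mul_mem' := fun hr hs => Co.mul hn hr hs
  one_mem' := h1
  add_mem' := fun hr hs => Co.add hr hs
  zero_mem' := Co.zero
  neg_mem' := fun hr => Co.neg hr

theorem mem_coRing {hn : ∀ k l : n, ∃ m : n, m ≠ k ∧ m ≠ l} {h1 : Co L (1 : R)} {r : R} :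
    r ∈ coRing L hn h1 ↔ Co L r := Iff.rfl

/-- products of coordinates, when a coordinate of `v` vanishes -/
theorem co_of_zero (hn : ∀ k l : n, ∃ m : n, m ≠ k ∧ m ≠ l) (h1 : Co L (1 : R)) {u v : n → R}
    (h0 : v ⬝ᵥ u = 0) (hu : InL L (tv u v)) {k : n} (hv : v k = 0) {l : n} (hlk : l ≠ k) (j : n) :
    Co L (u l * v j) := by
  have h2 := InL.stepA h0 hu hlk (h1 k l hlk.symm) hv
  have h3 : tv (Pi.single k (u l)) v = tv (Pi.single k 1) (u l • v) := by
    ext i j
    simp only [tv_apply, Pi.single_apply, Pi.smul_apply, smul_eq_mul]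
    split_ifs <;> simp
  rw [h3] at h2
  obtain ⟨m, hmj, hmk⟩ := hn j k
  have h4 : (u l • v) k = 0 := by simp [hv]
  have h5 := InL.stepB h4 h2 hmj hmk (h1 j m hmj.symm)
  have h6 := (Co.of_one h1 hn hmk.symm h5).neg
  rwa [neg_neg] at h6

/-- products of coordinates, when two coordinates of `v` agree -/
theorem co_of_eq (hn : ∀ k l : n, ∃ m : n, m ≠ k ∧ m ≠ l) (h1 : Co L (1 : R)) {u v : n → R}
    (h0 : v ⬝ᵥ u = 0) (hu : InL L (tv u v)) {k m : n} (hkm : k ≠ m) (hv : v k = v m) {l : n}
    (hlk : l ≠ k) (hlm : l ≠ m) (j : n) : Co L (u l * v j) := by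
  have e1 : (Pi.single k (1 : R) : n → R) ⬝ᵥ (Pi.single m (1 : R)) = 0 := by simp [hkm]
  have h2 := InL.conj (h1 m k hkm.symm) e1 hu
  have e2 : v ⬝ᵥ (Pi.single m (1 : R) : n → R) = v m := by simp
  have e3 : (Pi.single k (1 : R) : n → R) ⬝ᵥ u = u k := by simp
  rw [e2, e3] at h2
  set u' : n → R := u + u k • Pi.single m (1 : R) with hu'
  set v' : n → R := v - v m • Pi.single k (1 : R) with hv'
  have e4 : v' ⬝ᵥ u' = 0 := by
    rw [hu', hv', sub_dotProduct, dotProduct_add, dotProduct_add, h0, dotProduct_smul, e2,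
      smul_dotProduct, smul_dotProduct, e3, dotProduct_smul, e1]
    simp [mul_comm]
  have e5 : v' k = 0 := by simp [hv', hv]
  have e6 : u' l = u l := by simp [hu', hlm]
  have e7 : ∀ j, j ≠ k → v' j = v j := fun j hj => by simp [hv', hj]
  by_cases hj : j = k
  · rw [hj, hv]
    have h3 := co_of_zero hn h1 e4 h2 e5 hlk m
    rwa [e6, e7 m hkm.symm] at h3
  · have h3 := co_of_zero hn h1 e4 h2 e5 hlk j
    rwa [e6, e7 j hj] at h3

/-- all products of coordinates, when there are more coordinates than ring elements -/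
theorem co_of_tv [Finite R] (hcard : Nat.card R + 2 ≤ Fintype.card n) (h1 : Co L (1 : R))
    {u v : n → R} (h0 : v ⬝ᵥ u = 0) (hu : InL L (tv u v)) (l j : n) : Co L (u l * v j) := by
  classical
  have : Fintype R := Fintype.ofFinite R
  have hR : 0 < Fintype.card R := Fintype.card_pos
  rw [Nat.card_eq_fintype_card] at hcard
  have hn : ∀ k l : n, ∃ m : n, m ≠ k ∧ m ≠ l := by
    intro k l
    have : ({k, l} : Finset n) ≠ Finset.univ := by
      intro h
      have h2 := Finset.card_le_two (a := k) (b := l)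
      rw [h, Finset.card_univ] at h2
      omega
    obtain ⟨m, hm⟩ : ∃ m, m ∉ ({k, l} : Finset n) := by
      by_contra hc
      push Not at hc
      exact this (Finset.eq_univ_iff_forall.mpr hc)
    exact ⟨m, by simp at hm; tauto, by simp at hm; tauto⟩
  have h3 : (Finset.univ : Finset R).card < ((Finset.univ : Finset n).erase l).card := by
    rw [Finset.card_erase_of_mem (Finset.mem_univ l), Finset.card_univ, Finset.card_univ]
    omega
  obtain ⟨k, hk, m, hm, hkm, hv⟩ := Finset.exists_ne_map_eq_of_card_lt_of_maps_to h3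
    (f := v) (fun _ _ => Finset.mem_univ _)
  exact co_of_eq hn h1 h0 hu hkm hv (Finset.ne_of_mem_erase hk).symm
    (Finset.ne_of_mem_erase hm).symm j

end Vale.Agent.P183.H528
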