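import Vale.Agent.P183.R2.H528.Rep

/-!
Rings invariant under a group of automorphisms: intervals in the subgroup lattice of a semidirect
product.
-/

namespace Vale.Agent.P183.H528

open Matrix

section semi

variable {R : Type} [CommRing R] {N : ℕ}

/-- the action of automorphisms on `SL_N(R)` -/
def autSL (N : ℕ) (Γ : Subgroup (R ≃+* R)) : Γ →* MulAut (SpecialLinearGroup (Fin N) R) where
  toFun γ :=
    { toFun := SpecialLinearGroup.map (γ.1 : R →+* R)
      invFun := SpecialLinearGroup.map ((γ⁻¹).1 : R →+* R)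
      left_inv := by
        intro g
        apply Subtype.ext
        ext i j
        change (γ.1⁻¹) (γ.1 (g.1 i j)) = g.1 i j
        rw [← RingAut.mul_apply, inv_mul_cancel, RingAut.one_apply]
      right_inv := by
        intro g
        apply Subtype.ext
        ext i j
        change γ.1 ((γ.1⁻¹) (g.1 i j)) = g.1 i j
        rw [← RingAut.mul_apply, mul_inv_cancel, RingAut.one_apply]
      map_mul' := fun a b => map_mul _ a b }
  map_one' := by
    ext g
    rfl
  map_mul' a b := by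
    ext g
    rfl

theorem autSL_apply (Γ : Subgroup (R ≃+* R)) (γ : Γ) (g : SpecialLinearGroup (Fin N) R) :
    autSL N Γ γ g = SpecialLinearGroup.map (γ.1 : R →+* R) g := rfl

theorem autSL_sel (Γ : Subgroup (R ≃+* R)) (γ : Γ) {k l : Fin N} (h : k ≠ l) (x : R) :
    autSL N Γ γ (sel h x) = sel h (γ.1 x) := by
  rw [autSL_apply]
  apply Subtype.ext
  ext i j
  have e1 : (SpecialLinearGroup.map (γ.1 : R →+* R) (sel h x)).1 i j = γ.1 (el k l x i j) := rfl
  have e2 : (sel h (γ.1 x)).1 i j = el k l (γ.1 x) i j := rfl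
  rw [e1, e2, el_apply, el_apply, Matrix.one_apply]
  split_ifs <;> simp

/-- the group of an invariant ring in the semidirect product -/
def semiOf (Γ : Subgroup (R ≃+* R)) (P : Subring R) (hP : ∀ γ ∈ Γ, ∀ x ∈ P, γ x ∈ P) :
    Subgroup (SpecialLinearGroup (Fin N) R ⋊[autSL N Γ] Γ) where
  carrier := {x | x.left ∈ slOf P}
  mul_mem' := by
    intro a b ha hb
    change (a * b).left ∈ slOf P
    rw [SemidirectProduct.mul_left]
    refine (slOf P).mul_mem ha ?_
    intro i j
    exact hP a.right.1 a.right.2 _ (hb i j)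
  one_mem' := (slOf P).one_mem
  inv_mem' := by
    intro a ha
    change (a⁻¹).left ∈ slOf P
    rw [SemidirectProduct.inv_left]
    intro i j
    exact hP (a.right⁻¹).1 (a.right⁻¹).2 _ ((slOf P).inv_mem ha i j)

theorem mem_semiOf {Γ : Subgroup (R ≃+* R)} {P : Subring R}
    {hP : ∀ γ ∈ Γ, ∀ x ∈ P, γ x ∈ P} {x : SpecialLinearGroup (Fin N) R ⋊[autSL N Γ] Γ} :
    x ∈ semiOf Γ P hP ↔ x.left ∈ slOf P := Iff.rfl

theorem semi_iso [Finite R] (S : Subring R) (Γ : Subgroup (R ≃+* R))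
    (hS : ∀ γ ∈ Γ, ∀ x ∈ S, γ x ∈ S) :
    ∃ (G : Type) (_ : Group G) (_ : Finite G) (H : Subgroup G),
      Nonempty (AutSub S Γ ≃o Over H) := by
  let N : ℕ := (Nat.card (Set R)).factorial + 1
  have hN : 2 ≤ N := by
    have := Nat.factorial_pos (Nat.card (Set R))
    omega
  have hF : Finite Γ := by
    have : Finite (R ≃+* R) := Finite.of_injective (fun f : R ≃+* R => (f : R → R))
      DFunLike.coe_injective
    exact inferInstance
  have hG : Finite (SpecialLinearGroup (Fin N) R ⋊[autSL N Γ] Γ) :=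
    Finite.of_injective (fun x => (x.left, x.right)) fun x y h => by
      have h1 := congrArg Prod.fst h
      have h2 := congrArg Prod.snd h
      exact SemidirectProduct.ext h1 h2
  let f : AutSub S Γ → Over (semiOf (N := N) Γ S hS) :=
    fun P => ⟨semiOf Γ P.1 P.2.2, fun x hx => (slOf_le_iff hN).mpr P.2.1 hx⟩
  have hf : ∀ P P', f P ≤ f P' ↔ P ≤ P' := by
    intro P P'
    constructor
    · intro h
      refine (slOf_le_iff (N := N) hN).mp fun g hg => ?_
      have h1 : (SemidirectProduct.inl g : SpecialLinearGroup (Fin N) R ⋊[autSL N Γ] Γ) ∈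
          semiOf Γ P.1 P.2.2 := hg
      exact h h1
    · intro h x hx
      exact (slOf_le_iff (N := N) hN).mpr h hx
  refine ⟨_, inferInstance, hG, semiOf Γ S hS,
    ⟨RelIso.ofSurjective (OrderEmbedding.ofMapLEIff f hf) ?_⟩⟩
  rintro ⟨K, hK⟩
  let L : Subgroup (SpecialLinearGroup (Fin N) R) := K.comap SemidirectProduct.inl
  have hL : ∀ g, g ∈ L ↔ (SemidirectProduct.inl g :
    SpecialLinearGroup (Fin N) R ⋊[autSL N Γ] Γ) ∈ K := fun g => Iff.rfl
  have hSL : slOf S ≤ L := fun g hg => hK (show g ∈ slOf S from hg)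
  have hr : ∀ γ : Γ, (SemidirectProduct.inr γ :
      SpecialLinearGroup (Fin N) R ⋊[autSL N Γ] Γ) ∈ K := by
    intro γ
    apply hK
    rw [mem_semiOf, SemidirectProduct.left_inr]
    exact (slOf S).one_mem
  obtain ⟨P, hSP, hPL, hP⟩ := between (N := N) rfl S L hSL
  have hinv : ∀ γ ∈ Γ, ∀ x ∈ P, γ x ∈ P := by
    intro γ hγ x hx
    rw [hP] at hx ⊢
    intro k l hkl
    have h1 := (inL_iff hkl x).mp (hx k l hkl)
    rw [inL_iff hkl, hL]
    rw [hL] at h1
    have h2 := K.mul_mem (K.mul_mem (hr ⟨γ, hγ⟩) h1) (K.inv_mem (hr ⟨γ, hγ⟩))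
    rw [← map_inv, ← SemidirectProduct.inl_aut, autSL_sel] at h2
    exact h2
  refine ⟨⟨P, hSP, hinv⟩, Subtype.ext ?_⟩
  change semiOf Γ P hinv = K
  ext x
  rw [mem_semiOf, hPL, hL]
  have h3 := SemidirectProduct.inl_left_mul_inr_right x
  constructor
  · intro h4
    rw [← h3]
    exact K.mul_mem h4 (hr _)
  · intro h4
    rw [← h3] at h4
    exact (K.mul_mem_cancel_right (hr _)).mp h4

/-- the same for every subring `S` -/
theorem semi_iso' [Finite R] (S : Subring R) (Γ : Subgroup (R ≃+* R)) :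
    ∃ (G : Type) (_ : Group G) (_ : Finite G) (H : Subgroup G),
      Nonempty (AutSub S Γ ≃o Over H) := by
  let S' : Subring R := sInf {P : Subring R | S ≤ P ∧ ∀ γ ∈ Γ, ∀ x ∈ P, γ x ∈ P}
  have hS' : ∀ γ ∈ Γ, ∀ x ∈ S', γ x ∈ S' := by
    intro γ hγ x hx
    rw [Subring.mem_sInf] at hx ⊢
    intro P hP
    exact hP.2 γ hγ x (hx P hP)
  have hSS' : S ≤ S' := le_sInf fun P hP => hP.1
  have hle : ∀ P : Subring R, (∀ γ ∈ Γ, ∀ x ∈ P, γ x ∈ P) → (S' ≤ P ↔ S ≤ P) :=
    fun P hP => ⟨fun h => hSS'.trans h, fun h => sInf_le ⟨h, hP⟩⟩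
  obtain ⟨G, hG, hG', H, ⟨e⟩⟩ := semi_iso S' Γ hS'
  let e' : AutSub S Γ ≃o AutSub S' Γ :=
    { toFun := fun P => ⟨P.1, (hle P.1 P.2.2).mpr P.2.1, P.2.2⟩
      invFun := fun P => ⟨P.1, (hle P.1 P.2.2).mp P.2.1, P.2.2⟩
      left_inv := fun _ => rfl
      right_inv := fun _ => rfl
      map_rel_iff' := Iff.rfl }
  exact ⟨G, hG, hG', H, ⟨e'.trans e⟩⟩

end semi

end Vale.Agent.P183.H528
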