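import Vale.Agent.P183.R2.H528.GI
import Vale.Agent.P183.R2.H528.PairDefs

/-!
The six clauses of the hand-in.
-/

namespace Vale.Agent.P183.H528

open Matrix

/-- Clause (1): for every finite commutative ring `R` and subring `S` there is `n ≥ 2` such that
`P ↦ SL_n(P)` is an order isomorphism from all rings between `S` and `R` onto all subgroups of
`SL_n(R)` which contain `SL_n(S)`. -/
def Clause1 : Prop :=
  ∀ (R : Type) [CommRing R] [Finite R] (S : Subring R),
    ∃ n : ℕ, 2 ≤ n ∧ ∃ e : Mid S ≃o Over (slOf (N := n) S), ∀ P, (e P).1 = slOf P.1

/-- Clause (2): pairs (group of automorphisms, invariant intermediate ring), with the ring going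
up, and with the ring going down if `S` is invariant. -/
def Clause2 : Prop :=
  ∀ (R : Type) [CommRing R] [Finite R] (S : Subring R) (A : Type) [Group A] [Finite A]
    (A₀ : Subgroup A) (φ : A →* (R ≃+* R)), GroupInterval (PairSub S A₀ φ) ∧
      ((∀ a, ∀ r ∈ S, φ a r ∈ S) → GroupInterval (PairSubOp S A₀ φ))

/-- Clause (3): pairs (group of permutations, invariant equivalence relation), with the relation
going down, and with the relation going up. -/
def Clause3 : Prop :=
  ∀ (X A : Type) [Finite X] [Group A] [Finite A] [MulAction A X] (A₀ : Subgroup A),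
    GroupInterval (PairEq X A₀) ∧ GroupInterval (PairEqUp X A₀)

/-- Clause (4): pairs (group of automorphisms, invariant subgroup), with the subgroup going up,
and with the subgroup going down if `H` is invariant. -/
def Clause4 : Prop :=
  ∀ (G A : Type) [Group G] [Finite G] [Group A] [Finite A] (φ : A →* MulAut G)
    (H : Subgroup G) (A₀ : Subgroup A), GroupInterval (GroupPairs φ H A₀) ∧
      ((∀ a, ∀ g ∈ H, φ a g ∈ H) → GroupInterval (GroupPairsOp φ H A₀))

/-- Clause (5): the representable lattices are the lattices of intermediate rings closed under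
a set of endomorphisms, the group intervals are those for a group of automorphisms. -/
def Clause5 : Prop :=
  ∀ (L : Type) [LE L],
    (Representable L ↔
      ∃ (R : Type) (_ : CommRing R) (_ : Finite R) (S : Subring R) (F : Set (R →+* R)),
        Nonempty (L ≃o OpSub S F)) ∧
    (GroupInterval L ↔
      ∃ (R : Type) (_ : CommRing R) (_ : Finite R) (S : Subring R) (Γ : Subgroup (R ≃+* R)),
        Nonempty (L ≃o AutSub S Γ))

/-- Clause (6): pairs (congruence, family constant on its classes). -/
def Clause6 : Prop :=
  ∀ (C : FiniteAlgebra) (L : Type) [LE L], Representable L → Representable (ConstPairs C L)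

end Vale.Agent.P183.H528
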