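import Mathlib

/-!
Rank one transvections `1 + u v` in `SL_n(R)` and the extraction of elementary transvections.
-/

namespace Vale.Agent.P183.H528

open Matrix

section basic

variable {n : Type} [DecidableEq n] [Fintype n] {R : Type} [CommRing R]

/-- the matrix `1 + u v` -/
def tv (u v : n → R) : Matrix n n R := 1 + vecMulVec u v

omit [Fintype n] in
theorem tv_apply (u v : n → R) (i j : n) : tv u v i j = (1 : Matrix n n R) i j + u i * v j := by
  simp [tv, vecMulVec_apply]

theorem tv_mulVec (x y u : n → R) : tv x y *ᵥ u = u + (y ⬝ᵥ u) • x := by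
  rw [tv, add_mulVec, one_mulVec, vecMulVec_mulVec]
  ext i
  simp [mul_comm]

theorem vecMul_tv (x y v : n → R) : v ᵥ* tv x y = v + (v ⬝ᵥ x) • y := by
  rw [tv, vecMul_add, vecMul_one, vecMul_vecMulVec]

theorem mul_tv_mul (g g' : Matrix n n R) (h : g * g' = 1) (u v : n → R) :
    g * tv u v * g' = tv (g *ᵥ u) (v ᵥ* g') := by
  rw [tv, mul_add, add_mul, mul_one, h, mul_vecMulVec, vecMulVec_mul, tv]

theorem tv_mul_left (u u' v : n → R) (h : v ⬝ᵥ u = 0) : tv u' v * tv u (-v) = tv (u' - u) v := by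
  simp only [tv]
  rw [mul_add, mul_one, add_mul, one_mul, vecMulVec_mul_vecMulVec, h, zero_smul]
  ext i j
  simp [vecMulVec_apply]
  ring

theorem tv_mul_right (u v v' : n → R) (h : v' ⬝ᵥ u = 0) :
    tv u v' * tv u (-v) = tv u (v' - v) := by
  simp only [tv]
  rw [mul_add, mul_one, add_mul, one_mul, vecMulVec_mul_vecMulVec, h, zero_smul]
  ext i j
  simp [vecMulVec_apply]
  ring

omit [Fintype n] in
theorem tv_zero_left (v : n → R) : tv 0 v = 1 := by
  ext i j
  simp [tv_apply]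

omit [Fintype n] in
theorem tv_zero_right (u : n → R) : tv u 0 = 1 := by
  ext i j
  simp [tv_apply]

theorem tv_inv (u v : n → R) (h : v ⬝ᵥ u = 0) : tv u v * tv u (-v) = 1 := by
  rw [tv_mul_left u u v h, sub_self, tv_zero_left]

theorem tv_conj (x y u v : n → R) (h : y ⬝ᵥ x = 0) :
    tv x y * tv u v * tv x (-y) = tv (u + (y ⬝ᵥ u) • x) (v - (v ⬝ᵥ x) • y) := by
  rw [mul_tv_mul _ _ (tv_inv x y h), tv_mulVec, vecMul_tv, smul_neg, sub_eq_add_neg]

/-- the elementary matrix `1 + r E_kl` -/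
def el (k l : n) (r : R) : Matrix n n R := tv (Pi.single k r) (Pi.single l 1)

omit [Fintype n] in
theorem el_eq (k l : n) (r : R) : el k l r = tv (Pi.single k 1) (Pi.single l r) := by
  ext i j
  simp only [el, tv_apply, Pi.single_apply]
  split_ifs <;> simp

omit [Fintype n] in
theorem el_apply (k l : n) (r : R) (i j : n) :
    el k l r i j = (1 : Matrix n n R) i j + if i = k ∧ j = l then r else 0 := by
  simp only [el, tv_apply, Pi.single_apply]
  split_ifs <;> simp_all

omit [Fintype n] in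
theorem el_zero (k l : n) : el k l (0 : R) = 1 := by
  rw [el, Pi.single_zero, tv_zero_left]

theorem el_add (k l : n) (h : k ≠ l) (r s : R) : el k l (r + s) = el k l r * el k l s := by
  have h1 : (Pi.single l (1 : R) : n → R) ⬝ᵥ (Pi.single k (-s)) = 0 := by
    simp [h]
  have h2 := tv_mul_left (Pi.single k (-s)) (Pi.single k r) (Pi.single l (1 : R)) h1
  have h3 : (Pi.single k r : n → R) - Pi.single k (-s) = Pi.single k (r + s) := by
    rw [← Pi.single_sub, sub_neg_eq_add]
  rw [h3] at h2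
  rw [el, ← h2, el, el]
  congr 1
  ext i j
  simp only [tv_apply, Pi.single_apply, Pi.neg_apply]
  split_ifs <;> simp

/-- `M` is the matrix of an element of the subgroup `L` of `SL_n(R)`. -/
def InL (L : Subgroup (SpecialLinearGroup n R)) (M : Matrix n n R) : Prop :=
  ∃ g ∈ L, (g : Matrix n n R) = M

variable {L : Subgroup (SpecialLinearGroup n R)}

theorem InL.mul {M M' : Matrix n n R} (h : InL L M) (h' : InL L M') : InL L (M * M') := by
  obtain ⟨g, hg, rfl⟩ := h
  obtain ⟨g', hg', rfl⟩ := h'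
  exact ⟨g * g', L.mul_mem hg hg', rfl⟩

theorem InL.inv {M M' : Matrix n n R} (h : InL L M) (h' : M * M' = 1) : InL L M' := by
  obtain ⟨g, hg, rfl⟩ := h
  refine ⟨g⁻¹, L.inv_mem hg, ?_⟩
  have h1 : ((g⁻¹ : SpecialLinearGroup n R) : Matrix n n R) * (g : Matrix n n R) = 1 :=
    congrArg Subtype.val (inv_mul_cancel g)
  calc ((g⁻¹ : SpecialLinearGroup n R) : Matrix n n R)
      = (g⁻¹ : SpecialLinearGroup n R) * ((g : Matrix n n R) * M') := by rw [h', mul_one]
    _ = M' := by rw [← mul_assoc, h1, one_mul]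

theorem InL.one : InL L (1 : Matrix n n R) := ⟨1, L.one_mem, rfl⟩

theorem InL.tv_neg {u v : n → R} (h : InL L (tv u v)) (h0 : v ⬝ᵥ u = 0) : InL L (tv u (-v)) :=
  h.inv (tv_inv u v h0)

theorem InL.conj {x y u v : n → R} (hx : InL L (tv x y)) (h0 : y ⬝ᵥ x = 0) (hu : InL L (tv u v)) :
    InL L (tv (u + (y ⬝ᵥ u) • x) (v - (v ⬝ᵥ x) • y)) := by
  rw [← tv_conj x y u v h0]
  exact (hx.mul hu).mul (hx.tv_neg h0)

/-- extraction, first step -/
theorem InL.stepA {u v : n → R} (h0 : v ⬝ᵥ u = 0) (hu : InL L (tv u v)) {k l : n} (hkl : l ≠ k)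
    (hE : InL L (el k l (1 : R))) (hv : v k = 0) : InL L (tv (Pi.single k (u l)) v) := by
  have h1 : (Pi.single l (1 : R) : n → R) ⬝ᵥ (Pi.single k (1 : R)) = 0 := by
    simp [hkl.symm]
  have h2 := InL.conj hE h1 hu
  have h3 : v ⬝ᵥ (Pi.single k (1 : R) : n → R) = 0 := by simp [hv]
  have h4 : (Pi.single l (1 : R) : n → R) ⬝ᵥ u = u l := by simp
  rw [h3, zero_smul, sub_zero, h4] at h2
  have h5 := h2.mul (hu.tv_neg h0)
  rw [tv_mul_left _ _ _ h0] at h5
  have h6 : u + u l • (Pi.single k (1 : R) : n → R) - u = Pi.single k (u l) := by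
    rw [add_sub_cancel_left, ← Pi.single_smul, smul_eq_mul, mul_one]
  rwa [h6] at h5

/-- extraction, second step -/
theorem InL.stepB {w : n → R} {k : n} (hw : w k = 0) (hu : InL L (tv (Pi.single k 1) w)) {j m : n}
    (hmj : m ≠ j) (hmk : m ≠ k) (hE : InL L (el j m (1 : R))) :
    InL L (el k m (-(w j))) := by
  have h0 : w ⬝ᵥ (Pi.single k (1 : R) : n → R) = 0 := by simp [hw]
  have h1 : (Pi.single m (1 : R) : n → R) ⬝ᵥ (Pi.single j (1 : R)) = 0 := by
    simp [hmj.symm]
  have h2 := InL.conj hE h1 hu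
  have h3 : (Pi.single m (1 : R) : n → R) ⬝ᵥ (Pi.single k (1 : R)) = 0 := by
    simp [hmk.symm]
  have h4 : w ⬝ᵥ (Pi.single j (1 : R) : n → R) = w j := by simp
  rw [h3, zero_smul, add_zero, h4] at h2
  have h5 := h2.mul (hu.tv_neg h0)
  have h6 : (w - w j • (Pi.single m (1 : R) : n → R)) ⬝ᵥ (Pi.single k (1 : R)) = 0 := by
    rw [sub_dotProduct, h0, smul_dotProduct, h3, smul_zero, sub_zero]
  rw [tv_mul_right _ _ _ h6] at h5
  have h7 : w - w j • (Pi.single m (1 : R) : n → R) - w = Pi.single m (-(w j)) := by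
    rw [sub_sub_cancel_left, ← Pi.single_smul, smul_eq_mul, mul_one, Pi.single_neg]
  rw [h7] at h5
  rwa [el_eq]

end basic

end Vale.Agent.P183.H528
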